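import Vale.Agent.P072.Dyn

/-! Attraction to a compact set. -/

namespace Vale.Agent.P072

open Finset Filter Topology

variable {d : ℕ}

/-- the set of admissible velocities -/
def Vel (R : Finset (Reaction d)) (ε : ℝ) (y : Fin d → ℝ) : Set (Fin d → ℝ) :=
  {u | ∃ k, Adm R ε k ∧ u = field R k y}

lemma exists_pos_lower {α : Type*} (W : Finset α) (S : α → ℝ) :
    ∃ η : ℝ, 0 < η ∧ ∀ q ∈ W, 0 < S q → η ≤ S q := by
  classical
  induction W using Finset.induction_on with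
  | empty => exact ⟨1, one_pos, by simp⟩
  | insert l G _ ih =>
    obtain ⟨c, hc, h⟩ := ih
    by_cases h0 : 0 < S l
    · refine ⟨min c (S l), lt_min hc h0, fun l' hl' hne => ?_⟩
      rcases mem_insert.mp hl' with rfl | h1
      · exact min_le_right _ _
      · exact (min_le_left _ _).trans (h l' h1 hne)
    · refine ⟨c, hc, fun l' hl' hne => ?_⟩
      rcases mem_insert.mp hl' with rfl | h1
      · exact absurd hne h0
      · exact h l' h1 hne

theorem attraction (R : Finset (Reaction d)) (hR : WeaklyReversible R) {ε : ℝ} (hε : 0 < ε) :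
    ∃ E : ℝ, ∀ lo hi : ℝ, 0 < lo → ∀ x : ℝ → Fin d → ℝ,
      (∀ T, 0 ≤ T → Curve (Vel R ε) x 0 T) → (∀ t, 0 ≤ t → ∀ i, lo ≤ x t i ∧ x t i ≤ hi) →
      ∃ t, 0 ≤ t ∧ ∃ v : Fin d → ℝ, (∀ r ∈ R, v ⬝ᵥ reactionVec r = 0) ∧
        ∀ i, |Real.log (x t i) - v i| ≤ E := by
  classical
  obtain ⟨δ, hδ, hflux⟩ := exists_delta R hR hε
  obtain ⟨M, A, hM, hA, hpack⟩ := exists_pack R δ hδ 0 (Nat.zero_le _)
  refine ⟨A * (d + 2), fun lo hi hlo x hx hbox => ?_⟩
  have hd0 : (0 : ℝ) ≤ d := Nat.cast_nonneg d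
  set ρ : ℝ := M * (d + 2) + |Real.log hi| with hρ
  have hρ0 : 0 ≤ ρ := by positivity
  obtain ⟨W, hW⟩ := hpack (-Real.log lo) ρ (d + 2) le_rfl (by
    rw [abs_of_nonneg hρ0]; linarith [abs_nonneg (Real.log hi)]) (Or.inl (Nat.zero_le _))
  by_contra hcon
  push Not at hcon
  let S : (Fin d → ℝ) × ℝ → ℝ := fun q =>
    (1 / 3) * ∑ r ∈ R, (ε * ∏ i, lo ^ r.1 i) * |q.1 ⬝ᵥ reactionVec r|
  obtain ⟨η, hη, hηS⟩ := exists_pos_lower W S
  obtain ⟨q0, hq0, hq0'⟩ := hW.lower 1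
  obtain ⟨q1, hq1, hmax1⟩ := exists_max_image W (fun q => aff q (x 0)) ⟨q0, hq0⟩
  set c0 := aff q1 (x 0) with hc0
  set T := |c0| / η + 1 with hT
  have hT0 : 0 ≤ T := by positivity
  have hpos : ∀ t, 0 ≤ t → ∀ i, 0 < x t i := fun t ht i => hlo.trans_le (hbox t ht i).1
  have hmain := descent (hx T hT0) W η c0 hmax1 (by
    intro t ht _
    obtain ⟨u, htu, hub, hu⟩ := right_nhd ht (eventually_log (hx T hT0).1 ht (hpos t ht.1))
    refine ⟨u, htu, hub, fun z hz => Or.inr ?_⟩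
    have hz0 : 0 ≤ z := ht.1.trans hz.1.le
    obtain ⟨σ, hσ⟩ := exists_sort (x z)
    obtain ⟨q, hq, hqmax, hcl, hval⟩ := hW.valid (x z) (hpos z hz0) σ hσ
      (fun i hi => by omega) (fun i hi => by omega)
      (by
        intro i _
        have h1 := Real.log_le_log (hpos z hz0 (σ i)) (hbox z hz0 (σ i)).2
        have h2 := le_abs_self (Real.log hi)
        have h3 : 0 ≤ M * (d + 2) := by positivity
        linarith)
      (by
        intro i
        rw [neg_neg]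
        exact Real.log_le_log hlo (hbox z hz0 i).1)
    refine ⟨q, hq, hqmax, fun s hs v hv => ?_⟩
    obtain ⟨κ, hκ, rfl⟩ := hv
    have hs0 : 0 ≤ s := ht.1.trans hs.1
    have h1 := hflux q.1 (x s) κ (hpos s hs0) hκ (hval _ (by
      intro i
      have h2 := hu s ⟨hs.1, hs.2.trans hz.2⟩ i
      have h3 := hu z ⟨hz.1.le, hz.2⟩ i
      rw [abs_le] at h2 h3 ⊢
      constructor <;> linarith))
    have hSq : 0 < S q := by
      have h2 : ∃ r ∈ R, q.1 ⬝ᵥ reactionVec r ≠ 0 := by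
        by_contra hc
        push Not at hc
        obtain ⟨i, hi⟩ := hcon z hz0 q.1 hc
        exact absurd (hcl i) (not_le.mpr hi)
      obtain ⟨r, hr, hne⟩ := h2
      have h3 : 0 < ∑ r ∈ R, (ε * ∏ i, lo ^ r.1 i) * |q.1 ⬝ᵥ reactionVec r| :=
        sum_pos' (fun r _ => by positivity) ⟨r, hr, by
          have := abs_pos.mpr hne
          positivity⟩
      simp only [S]; linarith
    have h2 := hηS q hq hSq
    have h3 : ∑ r ∈ R, (ε * ∏ i, lo ^ r.1 i) * |q.1 ⬝ᵥ reactionVec r| ≤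
        ∑ r ∈ R, (κ r * ∏ i, x s i ^ r.1 i) * |q.1 ⬝ᵥ reactionVec r| := by
      apply sum_le_sum
      intro r hr
      apply mul_le_mul_of_nonneg_right _ (abs_nonneg _)
      apply mul_le_mul (hκ r hr).1 _ (by positivity) (hε.le.trans (hκ r hr).1)
      exact prod_le_prod (fun i _ => by positivity)
        fun i _ => pow_le_pow_left₀ hlo.le (hbox s hs0 i).1 _
    simp only [S] at h2
    linarith) T ⟨hT0, le_rfl⟩ q0 hq0
  rw [hq0'] at hmain
  have h1 : 0 ≤ tl 0 (x T ∘ (1 : Equiv.Perm (Fin d))) :=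
    sum_nonneg fun i _ => by simpa using (hpos T hT0 i).le
  have h2 : η * T = |c0| + η := by rw [hT]; field_simp
  have h3 := le_abs_self c0
  have h4 := mul_nonneg hρ0 h1
  rw [sub_zero] at hmain
  linarith

lemma conserved (R : Finset (Reaction d)) (ε : ℝ) {x : ℝ → Fin d → ℝ} {a b : ℝ}
    (hx : Curve (Vel R ε) x a b) {t : ℝ} (ht : t ∈ Set.Icc a b) : x t - x a ∈ stoich R := by
  have key : ∀ v : Fin d → ℝ, (∀ r ∈ R, v ⬝ᵥ reactionVec r = 0) → v ⬝ᵥ x t ≤ v ⬝ᵥ x a := by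
    intro v hv
    have := hx.2 v 0 a t le_rfl ht.1 ht.2 (by
      rintro s _ u ⟨κ, -, rfl⟩
      rw [dot_field, sum_eq_zero fun r hr => by rw [hv r hr, mul_zero]]
      simp)
    simpa using this
  by_contra hc
  obtain ⟨φ, hφ, hmap⟩ := Submodule.exists_dual_map_eq_bot_of_notMem hc inferInstance
  let v : Fin d → ℝ := fun i => φ (fun j => if i = j then 1 else 0)
  have hv : ∀ u, φ u = v ⬝ᵥ u := by
    intro u
    rw [LinearMap.pi_apply_eq_sum_univ φ u]
    simp [v, dotProduct, mul_comm]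
  have hvr : ∀ r ∈ R, v ⬝ᵥ reactionVec r = 0 := by
    intro r hr
    rw [← hv]
    have : φ (reactionVec r) ∈ (stoich R).map φ :=
      Submodule.mem_map_of_mem (Submodule.subset_span ⟨r, hr, rfl⟩)
    rwa [hmap, Submodule.mem_bot] at this
  have h1 := key v hvr
  have h2 := key (-v) fun r hr => by rw [neg_dotProduct, hvr r hr, neg_zero]
  rw [neg_dotProduct, neg_dotProduct] at h2
  apply hφ
  rw [hv, dotProduct_sub]; linarith

lemma dot_stoich (R : Finset (Reaction d)) {v u : Fin d → ℝ}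
    (hv : ∀ r ∈ R, v ⬝ᵥ reactionVec r = 0) (hu : u ∈ stoich R) : v ⬝ᵥ u = 0 := by
  induction hu using Submodule.span_induction with
  | mem u h => obtain ⟨r, hr, rfl⟩ := h; exact hv r hr
  | zero => simp
  | add u u' _ _ h1 h2 => rw [dotProduct_add, h1, h2, add_zero]
  | smul a u _ h => rw [dotProduct_smul, h, smul_zero]

lemma young {x : ℝ} (hx : 0 < x) (a : ℝ) : a * x - Real.exp (a - 1) ≤ x * Real.log x := by
  have h1 := Real.add_one_le_exp (a - 1 - Real.log x)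
  rw [Real.exp_sub, Real.exp_log hx, le_div_iff₀ hx] at h1
  nlinarith

lemma birch (c : Fin d → ℝ) (hc : ∀ i, 0 < c i) (E : ℝ) :
    ∃ R1 : ℝ, ∀ x v : Fin d → ℝ, (∀ i, 0 < x i) → v ⬝ᵥ (x - c) = 0 →
      (∀ i, |Real.log (x i) - v i| ≤ E) → ∀ i, Real.exp (-R1) ≤ x i ∧ x i ≤ Real.exp R1 := by
  classical
  let m : Fin d → ℝ := fun i => Real.exp (c i + E) + |E| * c i
  have hm : ∀ i, 0 ≤ m i := fun i => by have := hc i; positivity
  set Mt := ∑ i, m i with hMt
  have hMt0 : 0 ≤ Mt := sum_nonneg fun i _ => hm i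
  let g : Fin d → ℝ := fun i => (Mt + Real.exp (E - 1) + |E| * c i) / c i
  have hg : ∀ i, 0 ≤ g i := fun i => by have := hc i; positivity
  refine ⟨Mt + ∑ i, g i, fun x v hx hv hcl => ?_⟩
  let φ : Fin d → ℝ := fun i => Real.log (x i) * (x i - c i) - E * x i - |E| * c i
  have hsum : ∑ i, φ i ≤ 0 := by
    have h1 : ∀ i, φ i ≤ v i * (x i - c i) := by
      intro i
      have h2 := abs_le.mp (hcl i)
      have h3 := hx i
      have h4 := hc i
      have h5 := le_abs_self E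
      simp only [φ]
      nlinarith
    have h2 : ∑ i, v i * (x i - c i) = 0 := hv
    rw [← h2]
    exact sum_le_sum fun i _ => h1 i
  have hlow : ∀ i, x i - m i ≤ φ i := by
    intro i
    have h1 := young (hx i) (c i + E + 1)
    have h2 : Real.log (x i) ≤ x i := (Real.log_le_sub_one_of_pos (hx i)).trans (by linarith)
    have h4 := hc i
    rw [add_sub_cancel_right] at h1
    simp only [φ, m]
    nlinarith
  have hup : ∀ i, φ i + m i ≤ Mt := by
    intro i
    have h1 := single_le_sum (f := fun j => φ j + m j) (s := univ)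
      (fun j _ => by linarith [hlow j, hx j]) (mem_univ i)
    rw [sum_add_distrib] at h1
    linarith
  intro i
  have hgi : g i ≤ ∑ i, g i := single_le_sum (f := g) (fun j _ => hg j) (mem_univ i)
  have hg0 : 0 ≤ ∑ i, g i := sum_nonneg fun i _ => hg i
  constructor
  · rw [← Real.le_log_iff_exp_le (hx i)]
    have h1 := young (hx i) E
    have h2 := hup i
    have h3 := hm i
    have h4 : -Real.log (x i) ≤ g i := by
      simp only [g]
      rw [le_div_iff₀ (hc i)]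
      simp only [φ] at h2
      nlinarith
    linarith
  · have h1 := Real.add_one_le_exp (Mt + ∑ i, g i)
    linarith [hlow i, hup i]

lemma exists_box (x : Fin d → ℝ) (hx : ∀ i, 0 < x i) :
    ∃ R0 : ℝ, ∀ i, Real.exp (-R0) ≤ x i ∧ x i ≤ Real.exp R0 := by
  refine ⟨∑ i, |Real.log (x i)|, fun i => ?_⟩
  have h1 : |Real.log (x i)| ≤ ∑ i, |Real.log (x i)| :=
    single_le_sum (f := fun i => |Real.log (x i)|) (fun j _ => abs_nonneg _) (mem_univ i)
  rw [abs_le] at h1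
  exact ⟨(Real.le_log_iff_exp_le (hx i)).mp h1.1, (Real.log_le_iff_le_exp (hx i)).mp h1.2⟩

/-- the compact part of the class cut out by a box -/
def boxClass (R : Finset (Reaction d)) (c : Fin d → ℝ) (lo hi : ℝ) : Set (Fin d → ℝ) :=
  {y | y - c ∈ stoich R} ∩ Set.Icc (fun _ => lo) (fun _ => hi)

lemma isCompact_boxClass (R : Finset (Reaction d)) (c : Fin d → ℝ) (lo hi : ℝ) :
    IsCompact (boxClass R c lo hi) := by
  apply IsCompact.inter_left isCompact_Icc
  exact (Submodule.closed_of_finiteDimensional (stoich R)).preimage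
    (f := fun y : Fin d → ℝ => y - c) (by fun_prop)

lemma boxClass_subset (R : Finset (Reaction d)) (c : Fin d → ℝ) {lo : ℝ} (hlo : 0 < lo) (hi : ℝ) :
    boxClass R c lo hi ⊆ posClass R c :=
  fun _ hy => ⟨hy.1, fun i => hlo.trans_le (hy.2.1 i)⟩

lemma Curve.mono {D : (Fin d → ℝ) → Set (Fin d → ℝ)} {x : ℝ → Fin d → ℝ} {a b a' : ℝ}
    (hx : Curve D x a b) (ha : a ≤ a') : Curve D x a' b :=
  ⟨hx.1.mono (Set.Icc_subset_Icc_left ha), fun v η t z h1 h2 h3 h4 =>
    hx.2 v η t z (ha.trans h1) h2 h3 h4⟩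

/-- every curve starting at `x0` stays in a compact part of the class -/
theorem stays (R : Finset (Reaction d)) (hR : WeaklyReversible R) {ε : ℝ} (hε : 0 < ε)
    (c x0 : Fin d → ℝ) (hx0 : x0 ∈ posClass R c) :
    ∃ lo hi : ℝ, 0 < lo ∧ ∀ (x : ℝ → Fin d → ℝ) (T : ℝ), x 0 = x0 → Curve (Vel R ε) x 0 T →
      ∀ t ∈ Set.Icc 0 T, x t ∈ boxClass R c lo hi := by
  obtain ⟨R0, hR0⟩ := exists_box x0 hx0.2
  obtain ⟨lo, hi, hlo, h⟩ := invariance R hR hε R0
  refine ⟨lo, hi, hlo, fun x T h0 hx t ht => ?_⟩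
  have h1 := h (Vel R ε) (fun y _ u hu => hu) x 0 T hx (by rw [h0]; exact hR0) t ht
  refine ⟨?_, fun i => (h1 i).1, fun i => (h1 i).2⟩
  have h2 := (stoich R).add_mem (conserved R ε hx ht) hx0.1
  rw [h0] at h2
  simpa using h2

theorem absorbing (R : Finset (Reaction d)) (hR : WeaklyReversible R) {ε : ℝ} (hε : 0 < ε)
    (c : Fin d → ℝ) (hc : ∀ i, 0 < c i) :
    ∃ K : Set (Fin d → ℝ), IsCompact K ∧ K ⊆ posClass R c ∧ ∀ x : ℝ → Fin d → ℝ,
      x 0 ∈ posClass R c → (∀ T, 0 ≤ T → Curve (Vel R ε) x 0 T) →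
      ∃ T, ∀ t, T ≤ t → x t ∈ K := by
  obtain ⟨E, hE⟩ := attraction R hR hε
  obtain ⟨R1, hR1⟩ := birch c hc E
  obtain ⟨lo, hi, hlo, h⟩ := invariance R hR hε R1
  refine ⟨boxClass R c lo hi, isCompact_boxClass R c lo hi, boxClass_subset R c hlo hi,
    fun x hx0 hx => ?_⟩
  obtain ⟨lo', hi', hlo', hst⟩ := stays R hR hε c (x 0) hx0
  have hb : ∀ t, 0 ≤ t → x t ∈ boxClass R c lo' hi' := fun t ht =>
    hst x t rfl (hx t ht) t ⟨ht, le_rfl⟩
  obtain ⟨t0, ht0, v, hv, hcl⟩ := hE lo' hi' hlo' x hx fun t ht i =>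
    ⟨(hb t ht).2.1 i, (hb t ht).2.2 i⟩
  have h1 := hR1 (x t0) v (fun i => hlo'.trans_le ((hb t0 ht0).2.1 i))
    (dot_stoich R hv (hb t0 ht0).1) hcl
  refine ⟨t0, fun t ht => ?_⟩
  have h2 := h (Vel R ε) (fun y _ u hu => hu) x t0 t ((hx t (ht0.trans ht)).mono ht0) h1 t
    ⟨ht, le_rfl⟩
  exact ⟨(hb t (ht0.trans ht)).1, fun i => (h2 i).1, fun i => (h2 i).2⟩

end Vale.Agent.P072
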