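import Mathlib

/-! Mass-action systems. -/

namespace Vale.Agent.P072

/-- A reaction `y → y'` is the pair `(y, y')` of complexes. -/
abbrev Reaction (d : ℕ) : Type := (Fin d → ℕ) × (Fin d → ℕ)

/-- The reaction vector `y' - y`. -/
def reactionVec {d : ℕ} (r : Reaction d) : Fin d → ℝ := fun i => (r.2 i : ℝ) - (r.1 i : ℝ)

/-- For every reaction `y → y'` there is a directed path from `y'` to `y`. -/
def WeaklyReversible {d : ℕ} (R : Finset (Reaction d)) : Prop :=
  ∀ r ∈ R, Relation.ReflTransGen (fun y z => (y, z) ∈ R) r.2 r.1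

/-- The mass-action vector field with rate constants `k`. -/
def field {d : ℕ} (R : Finset (Reaction d)) (k : Reaction d → ℝ) (x : Fin d → ℝ) : Fin d → ℝ :=
  ∑ r ∈ R, (k r * ∏ i, x i ^ r.1 i) • reactionVec r

/-- The stoichiometric subspace. -/
def stoich {d : ℕ} (R : Finset (Reaction d)) : Submodule ℝ (Fin d → ℝ) :=
  Submodule.span ℝ {v | ∃ r ∈ R, v = reactionVec r}

/-- The positive stoichiometric class of `c`. -/
def posClass {d : ℕ} (R : Finset (Reaction d)) (c : Fin d → ℝ) : Set (Fin d → ℝ) :=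
  {x | x - c ∈ stoich R ∧ ∀ i, 0 < x i}

end Vale.Agent.P072
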