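import Vale.Agent.P072.Pack

/-! Invariance and attraction. -/

namespace Vale.Agent.P072

open Finset Filter Topology

variable {d : ℕ}

/-- An abstract solution of the differential inclusion `x' ∈ D x` on `[a, b]`. -/
def Curve (D : (Fin d → ℝ) → Set (Fin d → ℝ)) (x : ℝ → Fin d → ℝ) (a b : ℝ) : Prop :=
  ContinuousOn x (Set.Icc a b) ∧ ∀ (v : Fin d → ℝ) (η t z : ℝ), a ≤ t → t ≤ z → z ≤ b →
    (∀ s ∈ Set.Icc t z, ∀ u ∈ D (x s), v ⬝ᵥ u ≤ -η) → v ⬝ᵥ x z ≤ v ⬝ᵥ x t - η * (z - t)

lemma continuous_aff (q : (Fin d → ℝ) × ℝ) : Continuous (aff q) := by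
  unfold aff dotProduct; fun_prop

lemma descent {D : (Fin d → ℝ) → Set (Fin d → ℝ)} {x : ℝ → Fin d → ℝ} {a b : ℝ}
    (hx : Curve D x a b) (W : Finset ((Fin d → ℝ) × ℝ)) (η c0 : ℝ)
    (h0 : ∀ q ∈ W, aff q (x a) ≤ c0)
    (hloc : ∀ t ∈ Set.Ico a b, (∀ q ∈ W, aff q (x t) ≤ c0 - η * (t - a)) →
      ∃ u, t < u ∧ u ≤ b ∧ ∀ z ∈ Set.Ioc t u, (∀ q ∈ W, aff q (x z) ≤ c0 - η * (z - a)) ∨
        ∃ q ∈ W, (∀ q' ∈ W, aff q' (x z) ≤ aff q (x z)) ∧
          ∀ s ∈ Set.Icc t z, ∀ u ∈ D (x s), q.1 ⬝ᵥ u ≤ -η) :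
    ∀ t ∈ Set.Icc a b, ∀ q ∈ W, aff q (x t) ≤ c0 - η * (t - a) := by
  let s : Set ℝ := {t | ∀ q ∈ W, aff q (x t) ≤ c0 - η * (t - a)}
  have hclosed : IsClosed (s ∩ Set.Icc a b) := by
    have : s ∩ Set.Icc a b = Set.Icc a b ∩
        ⋂ q ∈ W, (Set.Icc a b ∩ (fun t => aff q (x t) + η * (t - a)) ⁻¹' Set.Iic c0) := by
      ext t
      simp only [s, Set.mem_inter_iff, Set.mem_setOf_eq, Set.mem_iInter, Set.mem_preimage,
        Set.mem_Iic]
      constructor
      · rintro ⟨h1, h2⟩; exact ⟨h2, fun q hq => ⟨h2, by linarith [h1 q hq]⟩⟩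
      · rintro ⟨h1, h2⟩; exact ⟨fun q hq => by linarith [(h2 q hq).2], h1⟩
    rw [this]
    refine isClosed_Icc.inter (isClosed_biInter fun q _ => ?_)
    apply ContinuousOn.preimage_isClosed_of_isClosed _ isClosed_Icc isClosed_Iic
    exact ((continuous_aff q).comp_continuousOn hx.1).add (by fun_prop)
  apply IsClosed.Icc_subset_of_forall_exists_gt hclosed
  · intro q hq; simpa using h0 q hq
  · rintro t ⟨ht, htI⟩ y hy
    obtain ⟨u, htu, hub, hu⟩ := hloc t htI ht
    have hz : min u y ∈ Set.Ioc t u := ⟨lt_min htu hy, min_le_left _ _⟩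
    refine ⟨min u y, ?_, hz.1, min_le_right _ _⟩
    rcases hu _ hz with h | ⟨q, hq, hmax, hv⟩
    · exact h
    · intro q' hq'
      have h1 := hx.2 q.1 η t (min u y) htI.1 hz.1.le (hz.2.trans hub) hv
      have h2 := ht q hq
      have h3 := hmax q' hq'
      unfold aff at h2 h3 ⊢
      linarith

lemma right_nhd {a b t : ℝ} (ht : t ∈ Set.Ico a b) {P : ℝ → Prop}
    (h : ∀ᶠ s in 𝓝[Set.Icc a b] t, P s) : ∃ u, t < u ∧ u ≤ b ∧ ∀ s ∈ Set.Icc t u, P s := by
  have h1 : ∀ᶠ s in 𝓝[Set.Ici t] t, P s := by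
    rw [← nhdsWithin_Icc_eq_nhdsGE ht.2]
    exact h.filter_mono (nhdsWithin_mono _ (Set.Icc_subset_Icc_left ht.1))
  obtain ⟨u, hu, hsub⟩ := mem_nhdsGE_iff_exists_Icc_subset.mp h1
  exact ⟨min u b, lt_min hu ht.2, min_le_right _ _,
    fun s hs => hsub ⟨hs.1, hs.2.trans (min_le_left _ _)⟩⟩

lemma eventually_log {x : ℝ → Fin d → ℝ} {a b t : ℝ} (hx : ContinuousOn x (Set.Icc a b))
    (ht : t ∈ Set.Ico a b) (hpos : ∀ i, 0 < x t i) :
    ∀ᶠ s in 𝓝[Set.Icc a b] t, ∀ i, |Real.log (x s i) - Real.log (x t i)| ≤ 1 / 2 := by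
  rw [eventually_all]
  intro i
  have h1 : ContinuousWithinAt (fun s => x s i) (Set.Icc a b) t :=
    (continuous_apply i).continuousAt.comp_continuousWithinAt (hx t ⟨ht.1, ht.2.le⟩)
  have h2 : ContinuousWithinAt (fun s => Real.log (x s i)) (Set.Icc a b) t :=
    h1.log (hpos i).ne'
  have h3 := Metric.tendsto_nhds.mp h2 (1 / 2) (by norm_num)
  filter_upwards [h3] with s hs
  rw [Real.dist_eq] at hs; exact hs.le

lemma exists_sort (x : Fin d → ℝ) : ∃ σ : Equiv.Perm (Fin d), Antitone (x ∘ σ) := by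
  refine ⟨Tuple.sort fun i => -x i, fun i j hij => ?_⟩
  have := Tuple.monotone_sort (fun i => -x i) hij
  simp only [Function.comp] at this ⊢
  linarith

lemma le_tl {k : ℕ} {x : Fin d → ℝ} (hx : ∀ i, 0 ≤ x i) (i : Fin d) (hi : k ≤ i + 1) :
    x i ≤ tl k x := by
  have := single_le_sum (f := fun j : Fin d => if k ≤ (j : ℕ) + 1 then x j else 0) (s := univ)
    (fun j _ => by split_ifs; exacts [hx j, le_rfl]) (mem_univ i)
  unfold tl
  simpa [hi] using this

lemma tl_le {k : ℕ} {x : Fin d → ℝ} {c : ℝ} (hc : 0 ≤ c)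
    (hx : ∀ i : Fin d, k ≤ i + 1 → x i ≤ c) : tl k x ≤ d * c := by
  have := sum_le_card_nsmul (univ : Finset (Fin d))
    (fun j : Fin d => if k ≤ (j : ℕ) + 1 then x j else 0) c (fun j _ => by
      split_ifs with h; exacts [hx j h, hc])
  unfold tl
  simpa using this

lemma tl_last (x : Fin d → ℝ) (i : Fin d) : ∃ π : Equiv.Perm (Fin d), tl d (x ∘ π) = x i := by
  have hd : d - 1 < d := by have := i.2; omega
  refine ⟨Equiv.swap i ⟨d - 1, hd⟩, ?_⟩
  unfold tl
  rw [sum_eq_single (⟨d - 1, hd⟩ : Fin d)]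
  · rw [if_pos (by simp; omega)]; simp
  · intro j _ hj
    rw [if_neg]
    intro h
    apply hj
    ext
    have := j.2
    simp; omega
  · simp

lemma two_mul_le_exp (d : ℕ) : 2 * (d : ℝ) ≤ Real.exp (d + 1) := by
  have h1 : (d : ℝ) + 1 ≤ Real.exp d := Real.add_one_le_exp _
  have h2 : (1 : ℝ) + 1 ≤ Real.exp 1 := Real.add_one_le_exp _
  have h3 : (0 : ℝ) ≤ d := Nat.cast_nonneg d
  rw [Real.exp_add]; nlinarith

lemma two_exp_le (u : ℝ) : 2 * Real.exp u ≤ Real.exp (u + 1) := by
  have h2 : (1 : ℝ) + 1 ≤ Real.exp 1 := Real.add_one_le_exp _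
  have := Real.exp_pos u
  rw [Real.exp_add]; nlinarith

/-- radii of the nested constraints -/
def rad (M r0 : ℝ) (d : ℕ) : ℕ → ℝ
  | 0 => r0
  | k + 1 => (M + 1) * (rad M r0 d k + d + 2)

lemma rad_mono {M r0 : ℝ} (hM : 0 ≤ M) (hr : 0 ≤ r0) (d : ℕ) : Monotone (rad M r0 d) := by
  have h0 : ∀ k, 0 ≤ rad M r0 d k := by
    intro k
    induction k with
    | zero => exact hr
    | succ k ih => simp only [rad]; positivity
  apply monotone_nat_of_le_succ
  intro k
  simp only [rad]
  have := h0 k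
  have : (0 : ℝ) ≤ d := Nat.cast_nonneg d
  nlinarith

theorem invariance (R : Finset (Reaction d)) (hR : WeaklyReversible R) {ε : ℝ} (hε : 0 < ε)
    (R0 : ℝ) : ∃ lo hi : ℝ, 0 < lo ∧ ∀ D : (Fin d → ℝ) → Set (Fin d → ℝ),
      (∀ y : Fin d → ℝ, (∀ i, lo ≤ y i ∧ y i ≤ hi) → ∀ u ∈ D y,
        ∃ k, Adm R ε k ∧ u = field R k y) →
      ∀ (x : ℝ → Fin d → ℝ) (a b : ℝ), Curve D x a b →
        (∀ i, Real.exp (-R0) ≤ x a i ∧ x a i ≤ Real.exp R0) →
        ∀ t ∈ Set.Icc a b, ∀ i, lo ≤ x t i ∧ x t i ≤ hi := by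
  classical
  obtain ⟨δ, hδ, hflux⟩ := exists_delta R hR hε
  have hp : ∀ k : ℕ, ∃ M A : ℝ, 0 ≤ M ∧ (k ≤ d → ∀ F ρ e : ℝ, (d : ℝ) + 2 ≤ e → M * e ≤ |ρ| →
      (k ≤ 1 ∨ ρ ≤ 0) → ∃ W, Pack R δ k ρ e (A * e) F W) := by
    intro k
    by_cases hk : k ≤ d
    · obtain ⟨M, A, h1, -, h3⟩ := exists_pack R δ hδ k hk
      exact ⟨M, A, h1, fun _ => h3⟩
    · exact ⟨0, 0, le_rfl, fun h => absurd h hk⟩
  choose Mk Ak hMk hpack using hp
  set M : ℝ := ∑ k ∈ range (d + 1), Mk k with hMdef
  have hM0 : 0 ≤ M := sum_nonneg fun k _ => hMk k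
  have hMle : ∀ k, k ≤ d → Mk k ≤ M := fun k hk =>
    single_le_sum (f := Mk) (fun k _ => hMk k) (mem_range.mpr (by omega))
  have hd0 : (0 : ℝ) ≤ d := Nat.cast_nonneg d
  set r0 : ℝ := |R0| + d + 1 + M * (d + 2) with hr0
  have hR0 := le_abs_self R0
  have hR0' := abs_nonneg R0
  have hMd : 0 ≤ M * (d + 2) := by positivity
  have hr1 : 1 ≤ r0 := by linarith
  set r : ℕ → ℝ := rad M r0 d with hr
  have hmono : Monotone r := rad_mono hM0 (by linarith) d
  have hrz : r 0 = r0 := rfl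
  have hrk : ∀ k, r0 ≤ r k := fun k => hrz ▸ hmono (Nat.zero_le k)
  let ρ : ℕ → ℝ := fun k => if k = 0 then r0 else -r k
  let e : ℕ → ℝ := fun k => if k = 0 then d + 2 else r (k - 1) + d + 2
  have he : ∀ k, (d : ℝ) + 2 ≤ e k := by
    intro k; simp only [e]; split_ifs
    · exact le_rfl
    · linarith [hrk (k - 1)]
  have hW : ∀ k : ℕ, ∃ W, k ≤ d → Pack R δ k (ρ k) (e k) (Ak k * e k) (r d + 1) W := by
    intro k
    by_cases hk : k ≤ d
    · obtain ⟨W, hW⟩ := hpack k hk (r d + 1) (ρ k) (e k) (he k) (by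
        have h1 := hMle k hk
        have h2 := he k
        have h3 : Mk k * e k ≤ M * e k := mul_le_mul_of_nonneg_right h1 (by linarith)
        refine h3.trans ?_
        rcases k with _ | k
        · simp only [ρ, e, if_true]
          rw [abs_of_nonneg (by linarith)]; linarith
        · simp only [ρ, e, Nat.add_one_ne_zero, if_false, Nat.add_sub_cancel, abs_neg]
          rw [abs_of_nonneg (by linarith [hrk (k + 1)])]
          have : r (k + 1) = (M + 1) * (r k + d + 2) := rfl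
          rw [this]
          nlinarith [hrk k])
        (by
          rcases k with _ | k
          · left; omega
          · right; simp only [ρ, Nat.add_one_ne_zero, if_false]; linarith [hrk (k + 1)])
      exact ⟨W, fun _ => hW⟩
    · exact ⟨∅, fun h => absurd h hk⟩
  choose W hW using hW
  let c : ℕ → ℝ := fun k => ρ k * Real.exp (ρ k)
  let Wall : Finset ((Fin d → ℝ) × ℝ) :=
    (range (d + 1)).biUnion fun k => (W k).image fun q => (q.1, q.2 + c k)
  have hmem : ∀ q, q ∈ Wall ↔ ∃ k, k ≤ d ∧ ∃ p ∈ W k, q = (p.1, p.2 + c k) := by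
    intro q
    simp only [Wall, mem_biUnion, mem_range, mem_image, Nat.lt_succ_iff]
    constructor
    · rintro ⟨j, hj, p, hp, rfl⟩; exact ⟨j, hj, p, hp, rfl⟩
    · rintro ⟨j, hj, p, hp, rfl⟩; exact ⟨j, hj, p, hp, rfl⟩
  have haff : ∀ (p : (Fin d → ℝ) × ℝ) (k : ℕ) (y : Fin d → ℝ),
      aff (p.1, p.2 + c k) y = aff p y - c k := by
    intro p k y; unfold aff; ring
  set lo : ℝ := Real.exp (-r d) / 2 with hlo
  have hlo0 : 0 < lo := by positivity
  -- consequences of the band condition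
  have hband : ∀ y : Fin d → ℝ, (∀ q ∈ Wall, aff q y ≤ lo) →
      (∀ k, 1 ≤ k → k ≤ d → ∀ π : Equiv.Perm (Fin d), Real.exp (-r k) / 2 ≤ tl k (y ∘ π)) ∧
      (∀ i, lo ≤ y i ∧ y i ≤ 2 * Real.exp r0) := by
    intro y hy
    have h1 : ∀ k, 1 ≤ k → k ≤ d → ∀ π : Equiv.Perm (Fin d),
        Real.exp (-r k) / 2 ≤ tl k (y ∘ π) := by
      intro k hk1 hk π
      obtain ⟨q, hq, hq'⟩ := (hW k hk).lower π
      have h2 := hy _ ((hmem _).mpr ⟨k, hk, q, hq, rfl⟩)
      rw [haff, hq'] at h2
      simp only [c, ρ, if_neg (show k ≠ 0 by omega)] at h2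
      have h3 : Real.exp (-r d) ≤ Real.exp (-r k) :=
        Real.exp_le_exp.mpr (by linarith [hmono hk])
      have h4 := hrk k
      have h5 := Real.exp_pos (-r k)
      by_contra hc
      nlinarith
    have h2 : ∀ i, lo ≤ y i := by
      intro i
      obtain ⟨π, hπ⟩ := tl_last y i
      have := h1 d (by have := i.2; omega) le_rfl π
      rwa [hπ] at this
    refine ⟨h1, fun i => ⟨h2 i, ?_⟩⟩
    obtain ⟨q, hq, hq'⟩ := (hW 0 (Nat.zero_le _)).lower 1
    have h3 := hy _ ((hmem _).mpr ⟨0, Nat.zero_le _, q, hq, rfl⟩)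
    rw [haff, hq'] at h3
    simp only [c, ρ, if_true, Equiv.Perm.coe_one, Function.comp_id] at h3
    have h4 : y i ≤ tl 0 y := le_tl (fun i => hlo0.le.trans (h2 i)) i (Nat.zero_le _)
    have h5 : Real.exp (-r d) ≤ Real.exp r0 := Real.exp_le_exp.mpr (by linarith [hrk d])
    have h6 := Real.exp_pos r0
    by_contra hc
    nlinarith
  refine ⟨lo, 2 * Real.exp r0, hlo0, fun D hD x a b hx hxa t ht => ?_⟩
  have hmain := descent hx Wall 0 0 (by
      intro q hq
      obtain ⟨k, hk, p, hp, rfl⟩ := (hmem q).mp hq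
      obtain ⟨σ, hσ⟩ := exists_sort (x a)
      have hpos : ∀ i, 0 ≤ x a i := fun i => (Real.exp_pos _).le.trans (hxa i).1
      have h1 := (hW k hk).upper p hp (x a) hpos σ hσ
      have h2 : Real.exp (ρ k - e k) ≤ Real.exp (ρ k) :=
        Real.exp_le_exp.mpr (by linarith [he k])
      have h3 := Real.exp_pos (ρ k)
      rw [haff]
      simp only [c]
      by_cases hk0 : k = 0
      · subst hk0
        simp only [ρ, if_true] at h1 h2 h3 ⊢
        have h4 : tl 0 (x a ∘ σ) ≤ d * Real.exp R0 :=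
          tl_le (Real.exp_pos _).le fun i _ => (hxa _).2
        have h5 : Real.exp (d + 1) * Real.exp R0 ≤ Real.exp r0 := by
          rw [← Real.exp_add]; apply Real.exp_le_exp.mpr; linarith
        have h6 := two_mul_le_exp d
        have h7 := Real.exp_pos R0
        have h8 : tl 0 (x a ∘ σ) ≤ Real.exp r0 / 2 := by nlinarith
        nlinarith
      · simp only [ρ, if_neg hk0] at h1 h2 h3 ⊢
        have hd : d - 1 < d := by omega
        have h4 := le_tl (k := k) (x := x a ∘ σ) (fun i => hpos _) ⟨d - 1, hd⟩ (by simp; omega)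
        have h5 := (hxa (σ ⟨d - 1, hd⟩)).1
        have h6 := two_exp_le (-r k)
        have h7 : Real.exp (-r k + 1) ≤ Real.exp (-R0) :=
          Real.exp_le_exp.mpr (by linarith [hrk k])
        have h8 : 2 * Real.exp (-r k) ≤ tl k (x a ∘ σ) := by
          simp only [Function.comp] at h4; linarith
        have h9 := hrk k
        nlinarith)
    (by
      intro t ht hq
      simp only [zero_mul, sub_zero] at hq ⊢
      have hb := hband (x t) fun q h => (hq q h).trans hlo0.le
      have hev1 := eventually_log hx.1 ht fun i => hlo0.trans_le (hb.2 i).1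
      have hev2 : ∀ᶠ s in 𝓝[Set.Icc a b] t, ∀ q ∈ Wall, aff q (x s) ≤ lo := by
        rw [eventually_all_finset]
        intro q h
        have h1 : ContinuousWithinAt (fun s => aff q (x s)) (Set.Icc a b) t :=
          (continuous_aff q).continuousAt.comp_continuousWithinAt (hx.1 t ⟨ht.1, ht.2.le⟩)
        exact (h1.eventually (gt_mem_nhds ((hq q h).trans_lt hlo0))).mono fun s hs => le_of_lt hs
      obtain ⟨u, htu, hub, hu⟩ := right_nhd ht (hev1.and hev2)
      refine ⟨u, htu, hub, fun z hz => ?_⟩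
      by_cases hall : ∀ q ∈ Wall, aff q (x z) ≤ 0
      · exact Or.inl hall
      right
      push Not at hall
      obtain ⟨q1, hq1, hq1'⟩ := hall
      obtain ⟨q0, hq0, hmax⟩ := exists_max_image Wall (fun q => aff q (x z)) ⟨q1, hq1⟩
      have hq0' : 0 < aff q0 (x z) := hq1'.trans_le (hmax q1 hq1)
      obtain ⟨k, hk, p, hp, rfl⟩ := (hmem q0).mp hq0
      have hzu := hu z ⟨hz.1.le, hz.2⟩
      have hbz := hband (x z) hzu.2
      have hpos : ∀ i, 0 < x z i := fun i => hlo0.trans_le (hbz.2 i).1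
      obtain ⟨σ, hσ⟩ := exists_sort (x z)
      have hup : ∀ i, Real.log (x z i) ≤ r0 + 1 := fun i =>
        (Real.log_le_iff_le_exp (hpos i)).mpr ((hbz.2 i).2.trans (two_exp_le r0))
      have hlow : ∀ i : Fin d, -r (i + 1) - (d + 1) ≤ Real.log (x z (σ i)) := by
        intro i
        rw [Real.le_log_iff_exp_le (hpos _)]
        have h1 := hbz.1 (i + 1) (by omega) (by have := i.2; omega) σ
        have h2 : tl (i + 1) (x z ∘ σ) ≤ d * x z (σ i) :=
          tl_le (hpos _).le fun j hj => hσ (show i ≤ j by rw [Fin.le_def]; omega)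
        have h3 := two_mul_le_exp d
        have h4 : Real.exp (-r (i + 1)) =
            Real.exp (-r (i + 1) - (d + 1)) * Real.exp (d + 1) := by
          rw [← Real.exp_add]; congr 1; ring
        have h5 := Real.exp_pos (-r (i + 1) - (d + 1))
        have h6 := hpos (σ i)
        have h7 := Real.exp_pos ((d : ℝ) + 1)
        by_contra hc
        nlinarith
      have htop : ∀ i : Fin d, k ≤ i + 1 → Real.log (x z (σ i)) ≤ ρ k + 1 := by
        intro i hi
        by_cases hk0 : k = 0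
        · simp only [ρ, if_pos hk0]; exact hup _
        · rw [Real.log_le_iff_le_exp (hpos _)]
          refine le_trans ?_ (two_exp_le _)
          have h1 := (hW k hk).upper p hp (x z) (fun i => (hpos i).le) σ hσ
          have h2 : Real.exp (ρ k - e k) ≤ Real.exp (ρ k) :=
            Real.exp_le_exp.mpr (by linarith [he k])
          have h3 := Real.exp_pos (ρ k)
          rw [haff] at hq0'
          have h4 := le_tl (k := k) (x := x z ∘ σ) (fun i => (hpos _).le) i hi
          simp only [c, ρ, if_neg hk0, Function.comp] at h1 h2 h3 h4 hq0' ⊢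
          have h9 := hrk k
          by_contra hc
          nlinarith
      obtain ⟨q, hq, hqmax, -, hval⟩ := (hW k hk).valid (x z) hpos σ hσ (by
          intro i hi
          have h1 := hlow i
          have h2 := hup (σ i)
          have h3 : r (i + 1) ≤ r (k - 1) := hmono (by omega)
          have h4 := hrk (k - 1)
          simp only [e, if_neg (show k ≠ 0 by omega)]
          rw [abs_le]; constructor <;> linarith)
        (by
          intro i hi
          have h1 := hlow i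
          have h2 := htop i hi.ge
          have h3 := he k
          rw [hi] at h1
          simp only [ρ, if_neg (show k ≠ 0 by omega)] at h2 ⊢
          rw [abs_le]; constructor <;> linarith)
        (by
          intro i hi
          have h2 := htop i hi.le
          linarith [he k])
        (by
          intro i
          rw [Real.le_log_iff_exp_le (hpos _)]
          refine le_trans ?_ (hbz.2 i).1
          have := two_exp_le (-(r d + 1))
          rw [show -(r d + 1) + 1 = -r d by ring] at this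
          linarith)
      refine ⟨(q.1, q.2 + c k), (hmem _).mpr ⟨k, hk, q, hq, rfl⟩, ?_, ?_⟩
      · intro q' hq'
        have h1 := hmax q' hq'
        have h2 := hqmax p hp
        rw [haff] at h1 ⊢
        linarith
      · intro s hs v hv
        have hsu := hu s ⟨hs.1, hs.2.trans hz.2⟩
        have hbs := hband (x s) hsu.2
        obtain ⟨κ, hκ, rfl⟩ := hD (x s) hbs.2 v hv
        have hspos : ∀ i, 0 < x s i := fun i => hlo0.trans_le (hbs.2 i).1
        have h1 := hflux q.1 (x s) κ hspos hκ (hval _ (by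
          intro i
          have h2 := hsu.1 i
          have h3 := hzu.1 i
          rw [abs_le] at h2 h3 ⊢
          constructor <;> linarith))
        have h2 : 0 ≤ ∑ r ∈ R, (κ r * ∏ i, x s i ^ r.1 i) * |q.1 ⬝ᵥ reactionVec r| :=
          sum_nonneg fun r hr => mul_nonneg (mul_nonneg (hε.le.trans (hκ r hr).1)
            (prod_nonneg fun i _ => pow_nonneg (hspos i).le _)) (abs_nonneg _)
        simp only [neg_zero]
        linarith) t ht
  exact (hband (x t) fun q hq => by
    have := hmain q hq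
    simp only [zero_mul, sub_zero] at this
    exact this.trans hlo0.le).2

end Vale.Agent.P072
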