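import Vale.Agent.P072.Defs

/-! The flux inequality for weakly reversible networks. -/

namespace Vale.Agent.P072

open Finset

lemma cross {α : Type*} {R : Finset (α × α)} (a : α → ℝ) (s : ℝ) {u v : α}
    (h : Relation.ReflTransGen (fun y z => (y, z) ∈ R) u v) (hu : s < a u) (hv : a v ≤ s) :
    ∃ r ∈ R, s < a r.1 ∧ a r.2 ≤ s := by
  induction h with
  | refl => linarith
  | @tail b c _ hbc ih =>
    by_cases hb : a b ≤ s
    · exact ih hb
    · exact ⟨(b, c), hbc, not_le.mp hb, hv⟩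

lemma cover {α : Type*} {R : Finset (α × α)} (a : α → ℝ) {u v : α}
    (h : Relation.ReflTransGen (fun y z => (y, z) ∈ R) u v) :
    a u - a v ≤ ∑ r ∈ R.filter (fun r => a v < a r.1), max (a r.1 - a r.2) 0 := by
  classical
  have hsub : Set.Ico (a v) (a u) ⊆
      ⋃ r ∈ R.filter (fun r => a v < a r.1), Set.Ico (a r.2) (a r.1) := by
    intro s hs
    obtain ⟨r, hr, h1, h2⟩ := cross a s h hs.2 hs.1
    simp only [Set.mem_iUnion]
    exact ⟨r, mem_filter.mpr ⟨hr, lt_of_le_of_lt hs.1 h1⟩, h2, h1⟩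
  have h1 := (MeasureTheory.measure_mono (μ := MeasureTheory.volume) hsub).trans
    (MeasureTheory.measure_biUnion_finset_le _ _)
  simp only [Real.volume_Ico] at h1
  have h2 : ∀ r : α × α, ENNReal.ofReal (a r.1 - a r.2) = ENNReal.ofReal (max (a r.1 - a r.2) 0) := by
    intro r
    rcases le_total (a r.1 - a r.2) 0 with h | h
    · rw [max_eq_right h, ENNReal.ofReal_of_nonpos h]; simp
    · rw [max_eq_left h]
  simp only [h2] at h1
  rw [← ENNReal.ofReal_sum_of_nonneg (fun r _ => le_max_right _ _)] at h1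
  exact (ENNReal.ofReal_le_ofReal_iff (sum_nonneg fun r _ => le_max_right _ _)).mp h1

lemma flux_le {α : Type*} {R : Finset (α × α)}
    (hR : ∀ r ∈ R, Relation.ReflTransGen (fun y z => (y, z) ∈ R) r.2 r.1)
    (a : α → ℝ) (φ : α × α → ℝ) (μ : ℝ) (hφ : ∀ r ∈ R, 0 ≤ φ r) (hμ0 : 0 ≤ μ)
    (hμ : (R.card : ℝ) * μ ≤ 1 / 2)
    (hdom : ∀ r ∈ R, ∀ r' ∈ R, a r.1 < a r'.1 → φ r ≤ μ * φ r') :
    ∑ r ∈ R, φ r * (a r.2 - a r.1) ≤ -(1 / 3) * ∑ r ∈ R, φ r * |a r.2 - a r.1| := by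
  classical
  set Dn := ∑ r ∈ R, φ r * max (a r.1 - a r.2) 0 with hDn
  set Up := ∑ r ∈ R, φ r * max (a r.2 - a r.1) 0 with hUp
  have hDn0 : 0 ≤ Dn := sum_nonneg fun r hr => mul_nonneg (hφ r hr) (le_max_right _ _)
  have h1 : ∑ r ∈ R, φ r * (a r.2 - a r.1) = Up - Dn := by
    rw [hUp, hDn, ← sum_sub_distrib]
    apply sum_congr rfl
    intro r _
    rcases le_total (a r.1 - a r.2) 0 with h | h
    · rw [max_eq_right h, max_eq_left (by linarith)]; ring
    · rw [max_eq_left h, max_eq_right (by linarith)]; ring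
  have h2 : ∑ r ∈ R, φ r * |a r.2 - a r.1| = Up + Dn := by
    rw [hUp, hDn, ← sum_add_distrib]
    apply sum_congr rfl
    intro r _
    rcases le_total (a r.1 - a r.2) 0 with h | h
    · rw [max_eq_right h, max_eq_left (by linarith), abs_of_nonneg (by linarith)]; ring
    · rw [max_eq_left h, max_eq_right (by linarith), abs_of_nonpos (by linarith)]; ring
  have h3 : ∀ r ∈ R, φ r * max (a r.2 - a r.1) 0 ≤ μ * Dn := by
    intro r hr
    rcases le_total (a r.2 - a r.1) 0 with h | h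
    · rw [max_eq_right h, mul_zero]; positivity
    · rw [max_eq_left h]
      calc φ r * (a r.2 - a r.1)
          ≤ φ r * ∑ r' ∈ R.filter (fun r' => a r.1 < a r'.1), max (a r'.1 - a r'.2) 0 :=
            mul_le_mul_of_nonneg_left (cover a (hR r hr)) (hφ r hr)
        _ = ∑ r' ∈ R.filter (fun r' => a r.1 < a r'.1), φ r * max (a r'.1 - a r'.2) 0 :=
            mul_sum _ _ _
        _ ≤ ∑ r' ∈ R.filter (fun r' => a r.1 < a r'.1), μ * (φ r' * max (a r'.1 - a r'.2) 0) := by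
            apply sum_le_sum
            intro r' hr'
            rw [mem_filter] at hr'
            rw [← mul_assoc]
            exact mul_le_mul_of_nonneg_right (hdom r hr r' hr'.1 hr'.2) (le_max_right _ _)
        _ ≤ ∑ r' ∈ R, μ * (φ r' * max (a r'.1 - a r'.2) 0) := by
            apply sum_le_sum_of_subset_of_nonneg (filter_subset _ _)
            intro r' hr' _
            exact mul_nonneg hμ0 (mul_nonneg (hφ r' hr') (le_max_right _ _))
        _ = μ * Dn := by rw [hDn, mul_sum]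
  have h4 : Up ≤ R.card • (μ * Dn) := sum_le_card_nsmul _ _ _ h3
  rw [nsmul_eq_mul] at h4
  have h5 : Up ≤ Dn / 2 := by nlinarith
  rw [h1, h2]; linarith

variable {d : ℕ}

/-- the difference of the source complexes -/
def srcDiff (r r' : Reaction d) : Fin d → ℝ := fun i => (r.1 i : ℝ) - (r'.1 i : ℝ)

/-- `v` orders the source complexes as `X` does, up to the tolerance `δ`. -/
def Valid (R : Finset (Reaction d)) (δ : ℝ) (v X : Fin d → ℝ) : Prop :=
  ∀ r ∈ R, ∀ r' ∈ R, -δ ≤ X ⬝ᵥ srcDiff r r' → 0 ≤ v ⬝ᵥ srcDiff r r'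

/-- admissible rates -/
def Adm (R : Finset (Reaction d)) (ε : ℝ) (k : Reaction d → ℝ) : Prop :=
  ∀ r ∈ R, ε ≤ k r ∧ k r ≤ ε⁻¹

lemma dot_field (R : Finset (Reaction d)) (k : Reaction d → ℝ) (v x : Fin d → ℝ) :
    v ⬝ᵥ field R k x = ∑ r ∈ R, (k r * ∏ i, x i ^ r.1 i) * (v ⬝ᵥ reactionVec r) := by
  unfold field
  rw [dotProduct_sum]
  apply sum_congr rfl
  intro r _
  rw [dotProduct_smul, smul_eq_mul]

lemma monomial_exp (x : Fin d → ℝ) (hx : ∀ i, 0 < x i) (y : Fin d → ℕ) :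
    ∏ i, x i ^ y i = Real.exp ((fun i => Real.log (x i)) ⬝ᵥ fun i => (y i : ℝ)) := by
  unfold dotProduct
  rw [Real.exp_sum]
  apply prod_congr rfl
  intro i _
  rw [mul_comm, Real.exp_nat_mul, Real.exp_log (hx i)]

lemma exists_delta (R : Finset (Reaction d)) (hR : WeaklyReversible R) {ε : ℝ} (hε : 0 < ε) :
    ∃ δ : ℝ, 0 ≤ δ ∧ ∀ (v x : Fin d → ℝ) (k : Reaction d → ℝ), (∀ i, 0 < x i) → Adm R ε k →
      Valid R δ v (fun i => Real.log (x i)) →
      v ⬝ᵥ field R k x ≤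
        -(1 / 3) * ∑ r ∈ R, (k r * ∏ i, x i ^ r.1 i) * |v ⬝ᵥ reactionVec r| := by
  refine ⟨2 * R.card * (ε⁻¹ * ε⁻¹), by positivity, fun v x k hx hk hv => ?_⟩
  set δ : ℝ := 2 * R.card * (ε⁻¹ * ε⁻¹) with hδ
  have hεi : 0 < ε⁻¹ := inv_pos.mpr hε
  let a : (Fin d → ℕ) → ℝ := fun y => v ⬝ᵥ fun i => (y i : ℝ)
  have ha : ∀ r : Reaction d, v ⬝ᵥ reactionVec r = a r.2 - a r.1 := by
    intro r
    simp only [a]
    rw [← dotProduct_sub]; rfl
  rw [dot_field]
  simp only [ha]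
  have hm : ∀ y : Fin d → ℕ, 0 < ∏ i, x i ^ y i := fun y => prod_pos fun i _ => pow_pos (hx i) _
  apply flux_le hR a _ (ε⁻¹ * ε⁻¹ * Real.exp (-δ))
  · intro r hr
    exact mul_nonneg (hε.le.trans (hk r hr).1) (hm _).le
  · positivity
  · have h1 : δ + 1 ≤ Real.exp δ := Real.add_one_le_exp δ
    have h2 : Real.exp (-δ) * Real.exp δ = 1 := by rw [← Real.exp_add]; simp
    have h3 := Real.exp_pos (-δ)
    have h4 : δ * Real.exp (-δ) ≤ 1 := by nlinarith
    have : (R.card : ℝ) * (ε⁻¹ * ε⁻¹ * Real.exp (-δ)) = δ * Real.exp (-δ) / 2 := by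
      rw [hδ]; ring
    rw [this]; linarith
  · intro r hr r' hr' hlt
    have h1 : (fun i => Real.log (x i)) ⬝ᵥ srcDiff r r' < -δ := by
      by_contra hc
      have h2 := hv r hr r' hr' (not_lt.mp hc)
      have h3 : v ⬝ᵥ srcDiff r r' = a r.1 - a r'.1 := by
        simp only [a]
        rw [← dotProduct_sub]; rfl
      linarith
    have h2 : (fun i => Real.log (x i)) ⬝ᵥ srcDiff r r' =
        ((fun i => Real.log (x i)) ⬝ᵥ fun i => (r.1 i : ℝ)) -
          ((fun i => Real.log (x i)) ⬝ᵥ fun i => (r'.1 i : ℝ)) := by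
      rw [← dotProduct_sub]; rfl
    have h3 : ∏ i, x i ^ r.1 i ≤ Real.exp (-δ) * ∏ i, x i ^ r'.1 i := by
      rw [monomial_exp x hx, monomial_exp x hx, ← Real.exp_add]
      apply Real.exp_le_exp.mpr; linarith
    have h4 : 1 ≤ ε⁻¹ * k r' := by
      have := mul_le_mul_of_nonneg_left (hk r' hr').1 hεi.le
      rwa [inv_mul_cancel₀ hε.ne'] at this
    have h5 := hm r'.1
    have h6 := Real.exp_pos (-δ)
    calc k r * ∏ i, x i ^ r.1 i ≤ ε⁻¹ * (Real.exp (-δ) * ∏ i, x i ^ r'.1 i) :=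
          mul_le_mul (hk r hr).2 h3 (hm _).le hεi.le
      _ ≤ ε⁻¹ * (Real.exp (-δ) * ∏ i, x i ^ r'.1 i) * (ε⁻¹ * k r') :=
          le_mul_of_one_le_right (by positivity) h4
      _ = _ := by ring

end Vale.Agent.P072
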