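import Mathlib

/-! Global Picard iteration for a bounded Lipschitz field with measurable time dependence. -/

namespace Vale.Agent.P072

open MeasureTheory Set BoundedContinuousFunction

variable {E : Type*} [NormedAddCommGroup E] [NormedSpace ℝ E] [CompleteSpace E]

omit [NormedSpace ℝ E] [CompleteSpace E] in
lemma intervalIntegrable_of_bdd {h : ℝ → E} {Mb : ℝ} (hb : ∀ s, ‖h s‖ ≤ Mb)
    (hm : AEStronglyMeasurable h volume) (a b : ℝ) : IntervalIntegrable h volume a b := by
  rw [intervalIntegrable_iff]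
  exact Measure.integrableOn_of_bounded (M := Mb) (by simp [Set.uIoc]) hm
    (Filter.Eventually.of_forall hb)

theorem picard (g : ℝ → E → E) (Mb L : ℝ) (hL0 : 0 ≤ L) (hb : ∀ s u, ‖g s u‖ ≤ Mb)
    (hL : ∀ s u u', ‖g s u - g s u'‖ ≤ L * ‖u - u'‖)
    (hm : ∀ y : ℝ → E, Continuous y → AEStronglyMeasurable (fun s => g s (y s)) volume) (x0 : E) :
    ∃ x : ℝ → E, Continuous x ∧ ∀ t, 0 ≤ t → x t = x0 + ∫ s in (0 : ℝ)..t, g s (x s) := by
  set lam : ℝ := 2 * L + 1 with hlam
  have hlam1 : 1 ≤ lam := by linarith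
  have hMb : 0 ≤ Mb := (norm_nonneg _).trans (hb 0 0)
  let y : (ℝ →ᵇ E) → ℝ → E := fun u s => Real.exp (lam * s) • u s
  have hy : ∀ u, Continuous (y u) := fun u => by simp only [y]; fun_prop
  have hint : ∀ u a b, IntervalIntegrable (fun s => g s (y u s)) volume a b := fun u a b =>
    intervalIntegrable_of_bdd (fun s => hb s _) (hm _ (hy u)) a b
  let f : (ℝ →ᵇ E) → ℝ → E := fun u t =>
    Real.exp (-(lam * max t 0)) • (x0 + ∫ s in (0 : ℝ)..max t 0, g s (y u s))
  have hf : ∀ u, Continuous (f u) := by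
    intro u
    have h1 : Continuous fun t : ℝ => ∫ s in (0 : ℝ)..t, g s (y u s) :=
      intervalIntegral.continuous_primitive (hint u) 0
    have h2 : Continuous fun t : ℝ => max t 0 := by fun_prop
    exact (Real.continuous_exp.comp (by fun_prop)).smul (continuous_const.add (h1.comp h2))
  have hfb : ∀ u t, ‖f u t‖ ≤ ‖x0‖ + Mb := by
    intro u t
    set τ := max t 0 with hτ
    have hτ0 : 0 ≤ τ := le_max_right _ _
    have h1 : ‖∫ s in (0 : ℝ)..τ, g s (y u s)‖ ≤ Mb * |τ - 0| :=
      intervalIntegral.norm_integral_le_of_norm_le_const fun s _ => hb s _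
    rw [sub_zero, abs_of_nonneg hτ0] at h1
    have h2 := Real.exp_pos (-(lam * τ))
    have h3 : Real.exp (-(lam * τ)) * Real.exp (lam * τ) = 1 := by rw [← Real.exp_add]; simp
    have h4 := Real.add_one_le_exp (lam * τ)
    have h5 : Real.exp (-(lam * τ)) * τ ≤ 1 := by nlinarith [mul_nonneg hL0 hτ0]
    have h6 : Real.exp (-(lam * τ)) ≤ 1 := by nlinarith [mul_nonneg hL0 hτ0]
    simp only [f]
    rw [norm_smul, Real.norm_of_nonneg h2.le]
    have h7 := (norm_add_le x0 _).trans (add_le_add_right h1 ‖x0‖)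
    have h8 := norm_nonneg x0
    calc _ ≤ Real.exp (-(lam * τ)) * (‖x0‖ + Mb * τ) := mul_le_mul_of_nonneg_left h7 h2.le
      _ ≤ _ := by nlinarith
  let Φ : (ℝ →ᵇ E) → (ℝ →ᵇ E) := fun u => ofNormedAddCommGroup (f u) (hf u) _ (hfb u)
  have hΦ : ContractingWith (1 / 2) Φ := by
    refine ⟨by norm_num, LipschitzWith.of_dist_le_mul fun u v => ?_⟩
    rw [dist_le (by positivity)]
    intro t
    set τ := max t 0 with hτ
    have hτ0 : 0 ≤ τ := le_max_right _ _
    have hd := dist_nonneg (x := u) (y := v)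
    have h1 : ‖∫ s in (0 : ℝ)..τ, (g s (y u s) - g s (y v s))‖ ≤
        ∫ s in (0 : ℝ)..τ, L * dist u v * Real.exp (lam * s) := by
      apply intervalIntegral.norm_integral_le_of_norm_le hτ0
      · refine Filter.Eventually.of_forall fun s _ => (hL s _ _).trans ?_
        simp only [y]
        rw [← smul_sub, norm_smul, Real.norm_of_nonneg (Real.exp_pos _).le, ← dist_eq_norm]
        have := dist_coe_le_dist (f := u) (g := v) s
        have h2 := Real.exp_pos (lam * s)
        have h3 := mul_le_mul_of_nonneg_left this (mul_nonneg hL0 h2.le)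
        nlinarith
      · exact Continuous.intervalIntegrable (by fun_prop) _ _
    have h2 : ∫ s in (0 : ℝ)..τ, L * dist u v * Real.exp (lam * s) =
        L * dist u v * ((Real.exp (lam * τ) - 1) / lam) := by
      rw [intervalIntegral.integral_const_mul, intervalIntegral.integral_comp_mul_left
        (fun s => Real.exp s) (by linarith), integral_exp]
      simp [div_eq_inv_mul]
    rw [intervalIntegral.integral_sub (hint u _ _) (hint v _ _), h2] at h1
    have h3 : dist (Φ u t) (Φ v t) = Real.exp (-(lam * τ)) *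
        ‖(∫ s in (0 : ℝ)..τ, g s (y u s)) - ∫ s in (0 : ℝ)..τ, g s (y v s)‖ := by
      rw [dist_eq_norm]
      change ‖f u t - f v t‖ = _
      simp only [f]
      rw [← smul_sub, norm_smul, Real.norm_of_nonneg (Real.exp_pos _).le, add_sub_add_left_eq_sub]
    rw [h3]
    have h4 := Real.exp_pos (-(lam * τ))
    have h5 : Real.exp (-(lam * τ)) * Real.exp (lam * τ) = 1 := by rw [← Real.exp_add]; simp
    refine (mul_le_mul_of_nonneg_left h1 h4.le).trans ?_
    have h6 : Real.exp (-(lam * τ)) * (L * dist u v * ((Real.exp (lam * τ) - 1) / lam)) =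
        L / lam * dist u v * (1 - Real.exp (-(lam * τ))) := by
      have h9 : Real.exp (-(lam * τ)) * (Real.exp (lam * τ) - 1) =
          1 - Real.exp (-(lam * τ)) := by rw [mul_sub, h5, mul_one]
      rw [← h9]; ring
    have h7 : L / lam ≤ 1 / 2 := by rw [div_le_iff₀ (by linarith)]; linarith
    have h8 : 0 ≤ L / lam := by positivity
    rw [h6]
    push_cast
    nlinarith [mul_nonneg h8 hd]
  let u := ContractingWith.fixedPoint Φ hΦ
  have hu : Φ u = u := ContractingWith.fixedPoint_isFixedPt hΦ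
  refine ⟨y u, hy u, fun t ht => ?_⟩
  have h1 : u t = f u t := (congrArg (fun w : ℝ →ᵇ E => w t) hu).symm
  simp only [y] at h1 ⊢
  rw [h1]
  simp only [f, max_eq_left ht, y]
  rw [smul_smul, ← Real.exp_add]; simp

end Vale.Agent.P072
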