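import Vale.Agent.P072.Attract
import Vale.Agent.P072.Picard

/-! Solutions are curves; global existence. -/

namespace Vale.Agent.P072

open Finset Filter Topology MeasureTheory

variable {d : ℕ}

/-- the dot product as a continuous linear map -/
noncomputable def dotL (v : Fin d → ℝ) : (Fin d → ℝ) →L[ℝ] ℝ :=
  LinearMap.toContinuousLinearMap
    { toFun := fun u => v ⬝ᵥ u
      map_add' := fun a b => dotProduct_add v a b
      map_smul' := fun a b => dotProduct_smul a v b }

lemma dotL_apply (v u : Fin d → ℝ) : dotL v u = v ⬝ᵥ u := rfl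

lemma curve_of_integral {D : (Fin d → ℝ) → Set (Fin d → ℝ)} {x g : ℝ → Fin d → ℝ} {T : ℝ}
    (hc : ContinuousOn x (Set.Icc 0 T)) (hg : IntegrableOn g (Set.Icc 0 T))
    (hx : ∀ t ∈ Set.Icc 0 T, x t = x 0 + ∫ s in (0 : ℝ)..t, g s)
    (hD : ∀ s ∈ Set.Icc 0 T, g s ∈ D (x s)) : Curve D x 0 T := by
  refine ⟨hc, fun v η t z h1 h2 h3 h4 => ?_⟩
  have hi : ∀ a b, 0 ≤ a → a ≤ b → b ≤ T → IntervalIntegrable g volume a b := by
    intro a b ha hab hb
    apply IntegrableOn.intervalIntegrable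
    rw [Set.uIcc_of_le hab]
    exact hg.mono_set (Set.Icc_subset_Icc ha hb)
  have h5 : x z = x t + ∫ s in t..z, g s := by
    rw [hx z ⟨h1.trans h2, h3⟩, hx t ⟨h1, h2.trans h3⟩, add_assoc,
      intervalIntegral.integral_add_adjacent_intervals (hi 0 t le_rfl h1 (h2.trans h3))
        (hi t z h1 h2 h3)]
  have h6 : v ⬝ᵥ ∫ s in t..z, g s = ∫ s in t..z, dotL v (g s) :=
    ((dotL v).intervalIntegral_comp_comm (hi t z h1 h2 h3)).symm
  have h7 : ∫ s in t..z, dotL v (g s) ≤ ∫ _ in t..z, -η := by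
    apply intervalIntegral.integral_mono_on h2
    · exact ⟨(dotL v).integrable_comp (hi t z h1 h2 h3).1,
        (dotL v).integrable_comp (hi t z h1 h2 h3).2⟩
    · simp
    · intro s hs
      exact h4 s hs _ (hD s ⟨h1.trans hs.1, hs.2.trans h3⟩)
  rw [intervalIntegral.integral_const, smul_eq_mul] at h7
  rw [h5, dotProduct_add, h6]; linarith

lemma curve_of_deriv {D : (Fin d → ℝ) → Set (Fin d → ℝ)} {x g : ℝ → Fin d → ℝ} {T : ℝ}
    (hx : ∀ t ∈ Set.Icc 0 T, HasDerivWithinAt x (g t) (Set.Icc 0 T) t)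
    (hD : ∀ s ∈ Set.Icc 0 T, g s ∈ D (x s)) : Curve D x 0 T := by
  have hc : ContinuousOn x (Set.Icc 0 T) := fun t ht => (hx t ht).continuousWithinAt
  refine ⟨hc, fun v η t z h1 h2 h3 h4 => ?_⟩
  have := image_le_of_deriv_right_le_deriv_boundary (f := fun s => dotL v (x s))
    (f' := fun s => dotL v (g s)) (a := t) (b := z)
    ((dotL v).continuous.comp_continuousOn (hc.mono (Set.Icc_subset_Icc h1 h3)))
    (by
      intro s hs
      have h5 := hx s ⟨h1.trans hs.1, hs.2.le.trans h3⟩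
      have h6 : HasDerivWithinAt x (g s) (Set.Ici s) s := by
        apply h5.mono_of_mem_nhdsWithin
        exact mem_of_superset (Icc_mem_nhdsGE (hs.2.trans_le h3))
          (Set.Icc_subset_Icc_left (h1.trans hs.1))
      exact (dotL v).hasFDerivAt.comp_hasDerivWithinAt s h6)
    (B := fun s => v ⬝ᵥ x t - η * (s - t)) (B' := fun _ => -η) (by simp [dotL_apply])
    (by fun_prop)
    (by
      intro s _
      have : HasDerivAt (fun s => v ⬝ᵥ x t - η * (s - t)) (-η) s := by
        simpa using (((hasDerivAt_id s).sub_const t).const_mul η).const_sub (v ⬝ᵥ x t)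
      exact this.hasDerivWithinAt)
    (fun s hs => h4 s ⟨hs.1, hs.2.le⟩ _ (hD s ⟨h1.trans hs.1, hs.2.le.trans h3⟩))
    (x := z) ⟨h2, le_rfl⟩
  exact this

lemma integrable_field (R : Finset (Reaction d)) {ε : ℝ} (hε : 0 < ε) {k : ℝ → Reaction d → ℝ}
    (hkm : ∀ r, Measurable fun s => k s r) (hk : ∀ s, Adm R ε (k s)) {x : ℝ → Fin d → ℝ} {T : ℝ}
    (hc : ContinuousOn x (Set.Icc 0 T)) :
    IntegrableOn (fun s => field R (k s) (x s)) (Set.Icc 0 T) := by
  unfold field
  apply integrable_finset_sum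
  intro r hr
  apply Integrable.smul_const
  apply Integrable.bdd_mul (c := ε⁻¹)
  · apply ContinuousOn.integrableOn_Icc
    exact continuousOn_finset_prod _ fun i _ =>
      ((continuous_apply i).comp_continuousOn hc).pow _
  · exact (hkm r).aestronglyMeasurable
  · refine Eventually.of_forall fun s => ?_
    rw [Real.norm_of_nonneg (hε.le.trans (hk s r hr).1)]
    exact (hk s r hr).2

/-- projection onto a box -/
def clamp (lo hi : ℝ) (u : Fin d → ℝ) : Fin d → ℝ := fun i => max lo (min hi (u i))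

lemma clamp_mem {lo hi : ℝ} (h : lo ≤ hi) (u : Fin d → ℝ) :
    clamp lo hi u ∈ Set.Icc (fun _ : Fin d => lo) (fun _ => hi) :=
  ⟨fun _ => le_max_left _ _, fun _ => max_le h (min_le_left _ _)⟩

lemma clamp_eq {lo hi : ℝ} {u : Fin d → ℝ} (h : ∀ i, lo ≤ u i ∧ u i ≤ hi) : clamp lo hi u = u := by
  funext i
  simp only [clamp]
  rw [min_eq_right (h i).2, max_eq_right (h i).1]

lemma clamp_lip (lo hi : ℝ) (u u' : Fin d → ℝ) : ‖clamp lo hi u - clamp lo hi u'‖ ≤ ‖u - u'‖ := by
  rw [pi_norm_le_iff_of_nonneg (norm_nonneg _)]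
  intro i
  refine le_trans ?_ (norm_le_pi_norm (u - u') i)
  simp only [clamp, Pi.sub_apply, Real.norm_eq_abs]
  refine (abs_max_sub_max_le_max _ _ _ _).trans (max_le (by simp) ?_)
  exact (abs_min_sub_min_le_max _ _ _ _).trans (max_le (by simp) le_rfl)

lemma continuous_clamp (lo hi : ℝ) : Continuous (clamp (d := d) lo hi) := by
  unfold clamp; fun_prop

theorem exists_solution (R : Finset (Reaction d)) (hR : WeaklyReversible R) {ε : ℝ} (hε : 0 < ε)
    {k : ℝ → Reaction d → ℝ} (hkm : ∀ r, Measurable fun s => k s r) (hk : ∀ s, Adm R ε (k s))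
    (x0 : Fin d → ℝ) (hx0 : ∀ i, 0 < x0 i) :
    ∃ x : ℝ → Fin d → ℝ, Continuous x ∧ x 0 = x0 ∧
      ∀ t, 0 ≤ t → x t = x 0 + ∫ s in (0 : ℝ)..t, field R (k s) (x s) := by
  obtain ⟨R0, hR0⟩ := exists_box x0 hx0
  obtain ⟨lo, hi0, hlo, hinv⟩ := invariance R hR hε R0
  set hi := max lo hi0 with hhi
  have hle : lo ≤ hi := le_max_left _ _
  let B : Set (Fin d → ℝ) := Set.Icc (fun _ => lo) (fun _ => hi)
  let Φ : Reaction d → (Fin d → ℝ) → Fin d → ℝ := fun r u => (∏ i, u i ^ r.1 i) • reactionVec r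
  have hΦ : ∀ r, ContDiff ℝ 1 (Φ r) := fun r => by simp only [Φ]; fun_prop
  have hlip : ∀ r, ∃ K, LipschitzOnWith K (Φ r) B := fun r =>
    (hΦ r).contDiffOn.exists_lipschitzOnWith one_ne_zero (convex_Icc _ _) isCompact_Icc
  have hbd : ∀ r, ∃ C, ∀ u ∈ B, ‖Φ r u‖ ≤ C := fun r =>
    isCompact_Icc.exists_bound_of_continuousOn (hΦ r).continuous.continuousOn
  choose K hK using hlip
  choose C hC using hbd
  have hfield : ∀ κ u, field R κ u = ∑ r ∈ R, κ r • Φ r u := by
    intro κ u; simp only [field, Φ, smul_smul]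
  have hkn : ∀ s, ∀ r ∈ R, ‖k s r‖ ≤ ε⁻¹ := by
    intro s r hr
    rw [Real.norm_of_nonneg (hε.le.trans (hk s r hr).1)]
    exact (hk s r hr).2
  have hεi : 0 ≤ ε⁻¹ := by positivity
  have hb : ∀ s u, ‖field R (k s) (clamp lo hi u)‖ ≤ ∑ r ∈ R, ε⁻¹ * C r := by
    intro s u
    rw [hfield]
    refine (norm_sum_le _ _).trans (sum_le_sum fun r hr => ?_)
    rw [norm_smul]
    exact mul_le_mul (hkn s r hr) (hC r _ (clamp_mem hle u)) (norm_nonneg _) hεi
  have hm : ∀ y : ℝ → Fin d → ℝ, Continuous y →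
      AEStronglyMeasurable (fun s => field R (k s) (clamp lo hi (y s))) volume := by
    intro y hy
    simp only [hfield]
    apply Finset.aestronglyMeasurable_fun_sum
    intro r _
    exact (hkm r).aestronglyMeasurable.smul
      ((hΦ r).continuous.comp ((continuous_clamp lo hi).comp hy)).aestronglyMeasurable
  obtain ⟨x, hxc, hx⟩ := picard (fun s u => field R (k s) (clamp lo hi u)) _
    (∑ r ∈ R, ε⁻¹ * K r) (sum_nonneg fun r _ => by positivity) hb (by
      intro s u u'
      rw [hfield, hfield, ← sum_sub_distrib, sum_mul]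
      refine (norm_sum_le _ _).trans (sum_le_sum fun r hr => ?_)
      rw [← smul_sub, norm_smul, mul_assoc]
      refine mul_le_mul (hkn s r hr) ?_ (norm_nonneg _) hεi
      have := (hK r).dist_le_mul _ (clamp_mem hle u) _ (clamp_mem hle u')
      rw [dist_eq_norm, dist_eq_norm] at this
      exact this.trans (mul_le_mul_of_nonneg_left (clamp_lip lo hi u u') (K r).2)) hm x0
  have hx00 : x 0 = x0 := by simpa using hx 0 le_rfl
  have hbox : ∀ t, 0 ≤ t → ∀ i, lo ≤ x t i ∧ x t i ≤ hi0 := by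
    intro t ht
    refine hinv (fun y => Vel R ε (clamp lo hi y)) ?_ x 0 t ?_ (by rw [hx00]; exact hR0) t
      ⟨ht, le_rfl⟩
    · intro y hy u hu
      rw [clamp_eq fun i => ⟨(hy i).1, (hy i).2.trans (le_max_right _ _)⟩] at hu
      exact hu
    · apply curve_of_integral (g := fun s => field R (k s) (clamp lo hi (x s))) hxc.continuousOn
      · exact Measure.integrableOn_of_bounded (by simp) (hm x hxc)
          (Eventually.of_forall fun s => hb s _)
      · intro s hs; rw [hx00]; exact hx s hs.1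
      · intro s _; exact ⟨k s, hk s, rfl⟩
  refine ⟨x, hxc, hx00, fun t ht => ?_⟩
  rw [hx00, hx t ht]
  congr 1
  apply intervalIntegral.integral_congr
  intro s hs
  rw [Set.uIcc_of_le ht] at hs
  simp only
  rw [clamp_eq fun i => ⟨(hbox s hs.1 i).1, (hbox s hs.1 i).2.trans (le_max_right _ _)⟩]

lemma exists_adm (R : Finset (Reaction d)) (k : Reaction d → ℝ) (hk : ∀ r ∈ R, 0 < k r) :
    ∃ ε : ℝ, 0 < ε ∧ Adm R ε k := by
  obtain ⟨η, hη, h⟩ := exists_pos_lower R fun r => min (k r) (k r)⁻¹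
  refine ⟨η, hη, fun r hr => ?_⟩
  have h1 := h r hr (lt_min (hk r hr) (inv_pos.mpr (hk r hr)))
  exact ⟨h1.trans (min_le_left _ _),
    (le_inv_comm₀ (hk r hr) hη).mpr (h1.trans (min_le_right _ _))⟩

lemma continuous_field (R : Finset (Reaction d)) (k : Reaction d → ℝ) : Continuous (field R k) := by
  unfold field; fun_prop

theorem exists_solution_deriv (R : Finset (Reaction d)) (hR : WeaklyReversible R)
    (k : Reaction d → ℝ) (hk : ∀ r ∈ R, 0 < k r) (x0 : Fin d → ℝ) (hx0 : ∀ i, 0 < x0 i) :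
    ∃ x : ℝ → Fin d → ℝ, x 0 = x0 ∧
      ∀ t ∈ Set.Ici (0 : ℝ), HasDerivWithinAt x (field R k (x t)) (Set.Ici 0) t := by
  obtain ⟨ε, hε, hadm⟩ := exists_adm R k hk
  obtain ⟨x, hxc, hx0', hx⟩ := exists_solution R hR hε (k := fun _ => k)
    (fun _ => measurable_const) (fun _ => hadm) x0 hx0
  refine ⟨x, hx0', fun t ht => ?_⟩
  have hc : Continuous fun s => field R k (x s) := (continuous_field R k).comp hxc
  have h1 := (hc.deriv_integral (a := 0) (b := t))
  have h2 : HasDerivAt (fun t => x 0 + ∫ s in (0 : ℝ)..t, field R k (x s)) (field R k (x t)) t :=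
    (intervalIntegral.integral_hasDerivAt_right (hc.intervalIntegrable _ _)
      (hc.stronglyMeasurableAtFilter _ _) hc.continuousAt).const_add _
  exact h2.hasDerivWithinAt.congr (fun s hs => hx s hs) (hx t ht)

end Vale.Agent.P072
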