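import Vale.Agent.P072.Tree
import Vale.Agent.P072.Flux

/-! Symmetrised families of affine maps on `Fin d → ℝ`. -/

namespace Vale.Agent.P072

open Finset

variable {d : ℕ}

/-- extension of a vector to `ℕ`, with a dummy coordinate `0` -/
def ext (x0 : ℝ) (x : Fin d → ℝ) : ℕ → ℝ
  | 0 => x0
  | i + 1 => if h : i < d then x ⟨i, h⟩ else x0

@[simp] lemma ext_succ (x0 : ℝ) (x : Fin d → ℝ) (i : Fin d) : ext x0 x (i + 1) = x i := by
  simp [ext]

lemma sum_ext (g : ℕ → ℝ) : ∑ j ∈ range (d + 1), g j = g 0 + ∑ i : Fin d, g (i + 1) := by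
  rw [sum_range_succ', Finset.sum_range (fun i => g (i + 1))]; ring

lemma exists_fin {j : ℕ} (h1 : 1 ≤ j) (h2 : j < d + 1) : ∃ i : Fin d, j = i + 1 :=
  ⟨⟨j - 1, by omega⟩, by simp; omega⟩

def aff (q : (Fin d → ℝ) × ℝ) (x : Fin d → ℝ) : ℝ := q.1 ⬝ᵥ x - q.2

def tl (k : ℕ) (x : Fin d → ℝ) : ℝ := ∑ i : Fin d, if k ≤ i + 1 then x i else 0

def perm (π : Equiv.Perm (Fin d)) (p : (ℕ → ℝ) × ℝ) : (Fin d → ℝ) × ℝ :=
  (fun i => p.1 (π.symm i + 1), p.2)

lemma aff_perm (π : Equiv.Perm (Fin d)) (p : (ℕ → ℝ) × ℝ) (x : Fin d → ℝ) :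
    aff (perm π p) x = ∑ i : Fin d, p.1 (i + 1) * x (π i) - p.2 := by
  unfold aff perm dotProduct
  simp only
  rw [← Equiv.sum_comp π]
  simp

lemma val_eq (k : ℕ) (ρ : ℝ) (p : (ℕ → ℝ) × ℝ) (z : ℕ → ℝ) :
    val (d + 1) (k + 1) ρ p z =
      (∑ i : Fin d, if k + 1 ≤ i + 1 then (p.1 (i + 1) - ρ) * z (i + 1) else 0) - p.2 := by
  unfold val
  congr 1
  have h1 : Ico (k + 1) (d + 1) = (range (d + 1)).filter fun j => k + 1 ≤ j := by
    ext j; simp; omega
  rw [h1, sum_filter, sum_ext]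
  simp

lemma aff_val {k : ℕ} {ρ : ℝ} {p : (ℕ → ℝ) × ℝ}
    (hp : ∀ i, i < k + 1 → p.1 i = (Pi.single k ρ : ℕ → ℝ) i) (π : Equiv.Perm (Fin d))
    (x : Fin d → ℝ) (z : ℕ → ℝ) (hz : ∀ i : Fin d, z (i + 1) = x (π i)) :
    aff (perm π p) x = ρ * tl k (x ∘ π) + val (d + 1) (k + 1) ρ p z := by
  rw [aff_perm, val_eq, tl, mul_sum, ← add_sub_assoc, ← sum_add_distrib]
  congr 1
  apply sum_congr rfl
  intro i _
  rw [hz]
  by_cases h1 : k + 1 ≤ i + 1
  · rw [if_pos h1, if_pos (by omega)]; simp; ring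
  · rw [if_neg h1, hp _ (by omega)]
    by_cases h2 : k ≤ i + 1
    · have h3 : (i : ℕ) + 1 = k := by omega
      rw [if_pos h2, h3]; simp
    · rw [if_neg h2, Pi.single_eq_of_ne (by omega)]; simp

structure Pack (R : Finset (Reaction d)) (δ : ℝ) (k : ℕ) (ρ e E F : ℝ)
    (W : Finset ((Fin d → ℝ) × ℝ)) : Prop where
  lower : ∀ π : Equiv.Perm (Fin d), ∃ q ∈ W, ∀ x, aff q x = ρ * tl k (x ∘ π)
  upper : ∀ q ∈ W, ∀ x : Fin d → ℝ, (∀ i, 0 ≤ x i) → ∀ σ : Equiv.Perm (Fin d),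
    Antitone (x ∘ σ) → aff q x ≤ ρ * tl k (x ∘ σ) + Real.exp (ρ - e) / 2
  valid : ∀ x : Fin d → ℝ, (∀ i, 0 < x i) → ∀ σ : Equiv.Perm (Fin d), Antitone (x ∘ σ) →
    (∀ i : Fin d, (i : ℕ) + 1 < k → |Real.log (x (σ i))| ≤ e) →
    (∀ i : Fin d, (i : ℕ) + 1 = k → |Real.log (x (σ i)) - ρ| ≤ e) →
    (∀ i : Fin d, k < (i : ℕ) + 1 → Real.log (x (σ i)) ≤ ρ + e) →
    (∀ i, -F ≤ Real.log (x i)) →
    ∃ q ∈ W, (∀ q' ∈ W, aff q' x ≤ aff q x) ∧ (∀ i, |Real.log (x i) - q.1 i| ≤ E) ∧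
      ∀ X' : Fin d → ℝ, (∀ i, |X' i - Real.log (x i)| ≤ 1) → Valid R δ q.1 X'

lemma abs_dot_le (h u : Fin d → ℝ) (c : ℝ) (hu : ∀ i, |u i| ≤ c) :
    |u ⬝ᵥ h| ≤ c * ∑ i, |h i| := by
  unfold dotProduct
  rw [mul_sum]
  refine (abs_sum_le_sum_abs _ _).trans (sum_le_sum fun i _ => ?_)
  rw [abs_mul]
  exact mul_le_mul_of_nonneg_right (hu i) (abs_nonneg _)

theorem exists_pack (R : Finset (Reaction d)) (δ : ℝ) (hδ : 0 ≤ δ) (k : ℕ) (hk : k ≤ d) :
    ∃ M A : ℝ, 0 ≤ M ∧ 1 ≤ A ∧ ∀ F ρ e : ℝ, (d : ℝ) + 2 ≤ e → M * e ≤ |ρ| → (k ≤ 1 ∨ ρ ≤ 0) →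
      ∃ W, Pack R δ k ρ e (A * e) F W := by
  classical
  let H : Finset (ℕ → ℝ) := ((R ×ˢ R) ×ˢ (univ : Finset (Equiv.Perm (Fin d)))).image
    fun u => ext 0 (srcDiff u.1.1 u.1.2 ∘ u.2)
  let L : ℝ := ∑ u ∈ R ×ˢ R, ∑ i, |srcDiff u.1 u.2 i|
  have hL0 : 0 ≤ L := sum_nonneg fun u _ => sum_nonneg fun i _ => abs_nonneg _
  have hL : ∀ r ∈ R, ∀ r' ∈ R, ∑ i, |srcDiff r r' i| ≤ L := by
    intro r hr r' hr'
    have hm : (r, r') ∈ R ×ˢ R := mem_product.mpr ⟨hr, hr'⟩
    have := single_le_sum (f := fun u : Reaction d × Reaction d => ∑ i, |srcDiff u.1 u.2 i|)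
      (s := R ×ˢ R) (fun u _ => sum_nonneg fun i _ => abs_nonneg _) hm
    exact this
  obtain ⟨G, M, A, hA, hM, -, hG⟩ := tree (d + 1) H (2 * L + δ + 1) (by positivity) (d - k) k
    (by omega)
  obtain ⟨c, hc, hcl⟩ := exists_lower G k
  refine ⟨M / c, A, by positivity, hA, fun F ρ e he hρ hmono => ?_⟩
  have hd0 : (0 : ℝ) ≤ d := Nat.cast_nonneg d
  obtain ⟨T, hT⟩ := hG F (Pi.single k ρ) e (by push_cast; linarith) (by
    intro l hl
    have h1 : dot (d + 1) l (Pi.single k ρ) = l k * ρ := by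
      unfold dot
      rw [sum_eq_single k]
      · simp
      · intro b _ hb; simp [Pi.single_eq_of_ne hb]
      · intro h; exfalso; apply h; simp; omega
    rw [h1]
    by_cases h0 : l k = 0
    · left; simp [h0]
    · right
      rw [abs_mul]
      have he0 : 0 ≤ e := by linarith
      have h2 := mul_le_mul (hcl l hl h0) hρ (by positivity) (abs_nonneg _)
      have h3 : c * (M / c * e) = M * e := by field_simp
      linarith)
  rw [Pi.single_eq_same] at hT
  let W : Finset ((Fin d → ℝ) × ℝ) := (univ ×ˢ T).image fun u => perm u.1 u.2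
  have hmem : ∀ q, q ∈ W ↔ ∃ π, ∃ p ∈ T, q = perm π p := by
    intro q
    simp only [W, mem_image, mem_product, mem_univ, true_and, Prod.exists]
    constructor
    · rintro ⟨π, p1, p2, hp, rfl⟩; exact ⟨π, p1, p2, hp, rfl⟩
    · rintro ⟨π, p1, p2, hp, rfl⟩; exact ⟨π, p1, p2, hp, rfl⟩
  have hanti : ∀ p ∈ T, Antitone fun i : Fin d => p.1 (i + 1) := by
    intro p hp i j hij
    have hij' : (i : ℕ) ≤ j := hij
    have hj := j.2
    simp only
    by_cases h1 : k + 1 ≤ i + 1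
    · exact hT.anti p hp _ _ h1 (by omega) (by omega)
    · have hjρ : p.1 (j + 1) ≤ ρ ∨ (j : ℕ) + 1 < k := by
        by_cases h2 : k + 1 ≤ j + 1
        · exact Or.inl (hT.le_cap p hp _ h2 (by omega))
        · by_cases h3 : (j : ℕ) + 1 = k
          · left; rw [hT.agree p hp _ (by omega), h3]; simp
          · right; omega
      rw [hT.agree p hp (i + 1) (by omega)]
      by_cases h2 : (i : ℕ) + 1 = k
      · rw [h2, Pi.single_eq_same]
        rcases hjρ with h | h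
        · exact h
        · omega
      · rw [Pi.single_eq_of_ne h2]
        rcases hjρ with h | h
        · rcases hmono with h' | h'
          · omega
          · linarith
        · rw [hT.agree p hp _ (by omega), Pi.single_eq_of_ne (by omega)]
  have hrearr : ∀ p ∈ T, ∀ (x : Fin d → ℝ) (σ π : Equiv.Perm (Fin d)), Antitone (x ∘ σ) →
      aff (perm π p) x ≤ aff (perm σ p) x := by
    intro p hp x σ π hσ
    rw [aff_perm, aff_perm]
    have h1 := ((hanti p hp).monovary hσ).sum_mul_comp_perm_le_sum_mul (σ := π.trans σ.symm)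
    simp only [Function.comp, Equiv.trans_apply, Equiv.apply_symm_apply] at h1
    linarith
  refine ⟨W, ⟨?_, ?_, ?_⟩⟩
  · intro π
    obtain ⟨p, hp, h1, h2⟩ := hT.tie
    refine ⟨perm π p, (hmem _).mpr ⟨π, p, hp, rfl⟩, fun x => ?_⟩
    rw [aff_val (hT.agree p hp) π x (ext 0 (x ∘ π)) (fun i => by simp), val_tie h1 h2, add_zero]
  · intro q hq x hx σ hσ
    obtain ⟨π, p, hp, rfl⟩ := (hmem q).mp hq
    refine (hrearr p hp x σ π hσ).trans ?_
    rw [aff_val (hT.agree p hp) σ x (ext 0 (x ∘ σ)) (fun i => by simp)]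
    have := hT.upper p hp (ext 0 (x ∘ σ)) (by
      intro i
      rcases i with _ | i
      · exact le_rfl
      · simp only [ext]; split_ifs
        · exact hx _
        · exact le_rfl)
    linarith
  · intro x hx σ hσ h1 h2 h3 h4
    let X : ℕ → ℝ := ext ((Pi.single k ρ : ℕ → ℝ) 0) fun i => Real.log (x (σ i))
    have hX : ∀ i : Fin d, X (i + 1) = Real.log (x (σ i)) := fun i => by simp [X]
    obtain ⟨p, hp, hmax, e', he1, he2, hcl', hsep⟩ := hT.valid X (by
        intro j hj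
        rcases Nat.eq_zero_or_pos j with h | h
        · subst h; simp only [X, ext]; simp; linarith
        · obtain ⟨i, rfl⟩ := exists_fin (d := d) h (by omega)
          rw [hX]
          by_cases h5 : (i : ℕ) + 1 = k
          · rw [h5, Pi.single_eq_same]; exact h2 i h5
          · rw [Pi.single_eq_of_ne h5, sub_zero]; exact h1 i (by omega))
      (by
        intro j hj hjd
        obtain ⟨i, rfl⟩ := exists_fin (d := d) (j := j) (by omega) hjd
        rw [hX]
        exact ⟨h3 i (by omega), h4 _⟩)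
      (by
        intro j j' hj hjj' hjd
        obtain ⟨i, rfl⟩ := exists_fin (d := d) (j := j) (by omega) (by omega)
        obtain ⟨i', rfl⟩ := exists_fin (d := d) (j := j') (by omega) hjd
        rw [hX, hX]
        exact Real.log_le_log (hx _) (hσ (show i ≤ i' by
          rw [Fin.le_def]; omega)))
    have hz : ∀ i : Fin d, (fun j => Real.exp (X j)) (i + 1) = x (σ i) := by
      intro i; simp only [hX, Real.exp_log (hx _)]
    have hclose : ∀ i, |Real.log (x i) - (perm σ p).1 i| ≤ e' := by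
      intro i
      have := hcl' ((σ.symm i : ℕ) + 1) (by have := (σ.symm i).2; omega)
      rw [hX] at this
      simpa [perm] using this
    refine ⟨perm σ p, (hmem _).mpr ⟨σ, p, hp, rfl⟩, ?_, fun i => (hclose i).trans he2, ?_⟩
    · intro q' hq'
      obtain ⟨π, p', hp', rfl⟩ := (hmem q').mp hq'
      refine (hrearr p' hp' x σ π hσ).trans ?_
      rw [aff_val (hT.agree p' hp') σ x (fun j => Real.exp (X j)) hz,
        aff_val (hT.agree p hp) σ x (fun j => Real.exp (X j)) hz]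
      have := hmax p' hp'
      linarith
    · intro X' hX' r hr r' hr' hge
      have h5 := hsep (ext 0 (srcDiff r r' ∘ σ)) (mem_image.mpr ⟨((r, r'), σ), by
        simp [hr, hr'], rfl⟩)
      have h6 : dot (d + 1) (ext 0 (srcDiff r r' ∘ σ)) p.1 = (perm σ p).1 ⬝ᵥ srcDiff r r' := by
        unfold dot dotProduct perm
        rw [sum_ext, ← Equiv.sum_comp σ (fun i => p.1 (σ.symm i + 1) * srcDiff r r' i)]
        simp [ext, mul_comm]
      rw [h6] at h5
      have h7 := abs_dot_le (srcDiff r r') (X' - (perm σ p).1) (2 * e') (by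
        intro i
        have h8 := hX' i
        have h9 := hclose i
        rw [abs_le] at h8 h9 ⊢
        simp only [Pi.sub_apply]
        constructor <;> linarith)
      rw [sub_dotProduct] at h7
      have h8 := hL r hr r' hr'
      have h9 := (abs_le.mp h7).2
      rcases h5 with h | h
      · exact h.ge
      · by_contra hneg
        rw [abs_of_neg (not_le.mp hneg)] at h
        nlinarith

end Vale.Agent.P072
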