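import Mathlib

/-! One-dimensional rounding with plateaus at a separated finite set of values. -/

namespace Vale.Agent.P072

open Finset

/-- grid thresholds -/
def th (a e : ℝ) (i : ℕ) : ℝ := a - i * e

lemma th_succ (a e : ℝ) (i : ℕ) : th a e (i + 1) = th a e i - e := by
  simp only [th]; push_cast; ring

structure Rounding (S : Finset ℝ) (a e : ℝ) (B : ℕ) (t ee : ℕ → ℝ) : Prop where
  head : ∀ l, l ≤ B → t l = a
  step : ∀ l, t (l + 1) = t l ∨ t (l + 1) + 1 ≤ t l
  step_le : ∀ l, t l - t (l + 1) ≤ (B + 1) * e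
  kind : ∀ l, (t l ∈ S ∧ ee l = (B + 2) * e) ∨ ((∀ s ∈ S, B * e < |t l - s|) ∧ ee l = 2 * e)
  window : ∀ i j, t i = t j → th a e i ≤ t j + ee j - e ∧ t j - ee j + e ≤ th a e (i + 1)

lemma exists_rounding (S : Finset ℝ) (a e : ℝ) (B : ℕ) (ha : a ∈ S) (he : 1 ≤ e) (hB : 1 ≤ B)
    (hsep : ∀ s ∈ S, ∀ s' ∈ S, s = s' ∨ (2 * B + 2) * e ≤ |s - s'|) :
    ∃ t ee : ℕ → ℝ, Rounding S a e B t ee := by
  classical
  have hB' : (1 : ℝ) ≤ B := by exact_mod_cast hB
  have hBe : e ≤ B * e := by nlinarith
  let near : ℕ → Prop := fun l => ∃ s ∈ S, |th a e l - s| ≤ B * e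
  let t : ℕ → ℝ := fun l => if h : near l then h.choose else th a e l
  let ee : ℕ → ℝ := fun l => if near l then (B + 2) * e else 2 * e
  have hn : ∀ l, near l → t l ∈ S ∧ |th a e l - t l| ≤ B * e := by
    intro l h
    have := h.choose_spec
    simp only [t, dif_pos h]
    exact this
  have hf : ∀ l, ¬ near l → t l = th a e l ∧ ∀ s ∈ S, B * e < |th a e l - s| := by
    intro l h
    refine ⟨by simp only [t, dif_neg h], fun s hs => ?_⟩
    by_contra hc
    exact h ⟨s, hs, not_lt.mp hc⟩
  have huniq : ∀ s ∈ S, ∀ s' ∈ S, |s - s'| ≤ (2 * B + 1) * e → s = s' := by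
    intro s hs s' hs' h
    rcases hsep s hs s' hs' with h1 | h1
    · exact h1
    · nlinarith
  have hboth : ∀ l, (t (l + 1) = t l) ∨ (t (l + 1) + 1 ≤ t l ∧ t l - t (l + 1) ≤ (B + 1) * e) := by
    intro l
    have hs := th_succ a e l
    by_cases h1 : near l <;> by_cases h2 : near (l + 1)
    · left
      obtain ⟨m1, b1⟩ := hn l h1
      obtain ⟨m2, b2⟩ := hn _ h2
      apply huniq _ m2 _ m1
      rw [abs_le] at b1 b2 ⊢
      constructor <;> nlinarith
    · right
      obtain ⟨m1, b1⟩ := hn l h1
      obtain ⟨e2, b2⟩ := hf _ h2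
      have b3 := b2 _ m1
      rw [abs_le] at b1
      rw [e2]
      rcases lt_abs.mp b3 with h | h <;> constructor <;> nlinarith
    · right
      obtain ⟨m2, b2⟩ := hn _ h2
      obtain ⟨e1, b1⟩ := hf _ h1
      have b3 := b1 _ m2
      rw [abs_le] at b2
      rw [e1]
      rcases lt_abs.mp b3 with h | h <;> constructor <;> nlinarith
    · right
      rw [(hf _ h1).1, (hf _ h2).1, hs]
      constructor <;> nlinarith
  refine ⟨t, ee, ⟨?_, ?_, ?_, ?_, ?_⟩⟩
  · intro l hl
    have hl' : (l : ℝ) ≤ B := by exact_mod_cast hl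
    have hl0 : (0 : ℝ) ≤ l := Nat.cast_nonneg l
    have hna : |th a e l - a| ≤ B * e := by
      rw [abs_le]; simp only [th]; constructor <;> nlinarith
    have h1 : near l := ⟨a, ha, hna⟩
    obtain ⟨m1, b1⟩ := hn l h1
    apply huniq _ m1 _ ha
    rw [abs_le] at b1 hna ⊢
    constructor <;> nlinarith
  · intro l
    rcases hboth l with h | h
    · exact Or.inl h
    · exact Or.inr h.1
  · intro l
    rcases hboth l with h | h
    · rw [h]; nlinarith
    · exact h.2
  · intro l
    by_cases h : near l
    · left; exact ⟨(hn l h).1, by simp only [ee, if_pos h]⟩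
    · right
      refine ⟨fun s hs => ?_, by simp only [ee, if_neg h]⟩
      rw [(hf l h).1]; exact (hf l h).2 s hs
  · intro i j hij
    have hs := th_succ a e i
    by_cases hj : near j
    · have hee : ee j = (B + 2) * e := by simp only [ee, if_pos hj]
      have hb : |th a e i - t j| ≤ B * e := by
        by_cases hi : near i
        · rw [← hij]; exact (hn i hi).2
        · rw [← hij, (hf i hi).1]; simp; positivity
      rw [abs_le] at hb
      rw [hee]; constructor <;> nlinarith
    · have hee : ee j = 2 * e := by simp only [ee, if_neg hj]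
      have hb : th a e i = t j := by
        by_cases hi : near i
        · exfalso
          have := (hf j hj).2 _ (hn i hi).1
          rw [hij, (hf j hj).1] at this
          simp at this
          nlinarith
        · rw [← hij, (hf i hi).1]
      rw [hee]; constructor <;> nlinarith

namespace Rounding

variable {S : Finset ℝ} {a e : ℝ} {B : ℕ} {t ee : ℕ → ℝ}

lemma anti (h : Rounding S a e B t ee) : Antitone t := by
  apply antitone_nat_of_succ_le
  intro l
  rcases h.step l with h1 | h1 <;> linarith

lemma zero (h : Rounding S a e B t ee) : t 0 = a := h.head 0 (Nat.zero_le _)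

lemma le_cap (h : Rounding S a e B t ee) (l : ℕ) : t l ≤ a := by
  rw [← h.zero]; exact h.anti (Nat.zero_le _)

lemma two_le (h : Rounding S a e B t ee) (he : 1 ≤ e) (l : ℕ) : 2 * e ≤ ee l := by
  have : (0 : ℝ) ≤ B := Nat.cast_nonneg B
  rcases h.kind l with h1 | h1 <;> rw [h1.2]
  nlinarith

lemma le_B (h : Rounding S a e B t ee) (he : 1 ≤ e) (l : ℕ) : ee l ≤ (B + 2) * e := by
  have : (0 : ℝ) ≤ B := Nat.cast_nonneg B
  rcases h.kind l with h1 | h1 <;> rw [h1.2]
  nlinarith

end Rounding

/-- the cost attached to the `j`-th value -/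
noncomputable def cost (a e : ℝ) (t : ℕ → ℝ) (j : ℕ) : ℝ :=
  ∑ l ∈ range j, (t (l + 1) - t l) * Real.exp (th a e (l + 1))

/-- the affine function attached to the `j`-th value -/
noncomputable def term (a e : ℝ) (t : ℕ → ℝ) (j : ℕ) (y : ℝ) : ℝ :=
  (t j - a) * y - cost a e t j

lemma term_succ (a e : ℝ) (t : ℕ → ℝ) (j : ℕ) (y : ℝ) :
    term a e t (j + 1) y =
      term a e t j y + (t j - t (j + 1)) * (Real.exp (th a e (j + 1)) - y) := by
  simp only [term, cost, sum_range_succ]; ring

namespace Rounding

variable {S : Finset ℝ} {a e : ℝ} {B : ℕ} {t ee : ℕ → ℝ}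

lemma term_zero (h : Rounding S a e B t ee) (y : ℝ) : term a e t 0 y = 0 := by
  simp [term, cost, h.zero]

lemma term_run (h : Rounding S a e B t ee) (y : ℝ) {i j : ℕ} (hij : i ≤ j) (ht : t i = t j) :
    term a e t i y = term a e t j y := by
  induction j, hij using Nat.le_induction with
  | base => rfl
  | succ j hij ih =>
    have h1 : t j ≤ t i := h.anti hij
    have h2 : t (j + 1) ≤ t j := h.anti (Nat.le_succ j)
    have h3 : t j = t (j + 1) := by linarith
    rw [term_succ, ← ih (by linarith), h3]; ring

lemma term_le (h : Rounding S a e B t ee) (he : 1 ≤ e) (hB : 5 ≤ B) (y : ℝ) (hy : 0 ≤ y) (j : ℕ) :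
    term a e t j y ≤ Real.exp (a - e) / 4 := by
  have hB' : (5 : ℝ) ≤ B := by exact_mod_cast hB
  have key : ∀ j, term a e t j y ≤
      (B + 1) * (Real.exp (th a e B) - Real.exp (th a e (max j B))) := by
    intro j
    induction j with
    | zero => simp [h.term_zero]
    | succ j ih =>
      rw [term_succ]
      have h2 : t (j + 1) ≤ t j := h.anti (Nat.le_succ j)
      by_cases hj : j + 1 ≤ B
      · rw [h.head _ hj, h.head j (by omega)]
        rw [max_eq_right hj]
        rw [max_eq_right (by omega : j ≤ B)] at ih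
        simpa using ih
      · rw [max_eq_left (by omega : B ≤ j + 1)]
        rw [max_eq_left (by omega : B ≤ j)] at ih
        have h3 := h.step_le j
        have h4 : Real.exp (th a e j) = Real.exp (th a e (j + 1)) * Real.exp e := by
          rw [← Real.exp_add, th_succ]; congr 1; ring
        have h5 : e + 1 ≤ Real.exp e := Real.add_one_le_exp e
        have h6 := Real.exp_pos (th a e (j + 1))
        have h7 : (t j - t (j + 1)) * (Real.exp (th a e (j + 1)) - y) ≤
            (B + 1) * e * Real.exp (th a e (j + 1)) := by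
          have : (t j - t (j + 1)) * (Real.exp (th a e (j + 1)) - y) ≤
              (t j - t (j + 1)) * Real.exp (th a e (j + 1)) := by nlinarith
          nlinarith
        have h8 : e * Real.exp (th a e (j + 1)) ≤
            Real.exp (th a e j) - Real.exp (th a e (j + 1)) := by
          rw [h4]; nlinarith
        nlinarith
  have h1 := key j
  have h2 := Real.exp_pos (th a e (max j B))
  have h3 : Real.exp (a - e) = Real.exp (th a e B) * Real.exp ((B - 1) * e) := by
    rw [← Real.exp_add]; congr 1; simp only [th]; ring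
  have h4 : 4 * ((B : ℝ) + 1) ≤ Real.exp ((B - 1) * e) := by
    have h5 : Real.exp ((B : ℝ) - 1) ≤ Real.exp ((B - 1) * e) := by
      apply Real.exp_le_exp.mpr; nlinarith
    have h6 : Real.exp ((B : ℝ) - 1) = Real.exp 4 * Real.exp (B - 5) := by
      rw [← Real.exp_add]; congr 1; ring
    have h7 : (B : ℝ) - 5 + 1 ≤ Real.exp (B - 5) := Real.add_one_le_exp _
    have h8 : (24 : ℝ) ≤ Real.exp 4 := by
      have : Real.exp 4 = Real.exp 1 ^ 4 := by rw [← Real.exp_nat_mul]; norm_num
      rw [this]
      have := Real.exp_one_gt_d9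
      have h9 : (2.7 : ℝ) ^ 4 ≤ Real.exp 1 ^ 4 := by
        apply pow_le_pow_left₀ (by norm_num); linarith
      nlinarith
    nlinarith
  have h5 := Real.exp_pos (th a e B)
  rw [h3]
  nlinarith

lemma half_lt {u v : ℝ} (huv : u + 1 ≤ v) : Real.exp v / 2 < Real.exp v - Real.exp u := by
  have h1 : Real.exp (u + 1) ≤ Real.exp v := Real.exp_le_exp.mpr huv
  rw [Real.exp_add] at h1
  have := Real.exp_one_gt_d9
  have := Real.exp_pos u
  nlinarith

/-- An index that is optimal up to `exp (t j - ee j) / 2` is close to `log y`. -/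
lemma close (h : Rounding S a e B t ee) (he : 1 ≤ e) {D X Y : ℝ} {J j : ℕ} (hD : D + 1 ≤ e)
    (hXY : X ≤ Y) (hYX : Y ≤ X + D) (hXa : X ≤ a + e) (hJ : th a e (J + 1) ≤ X) (hj : j ≤ J)
    (hopt : ∀ i, i ≤ J → term a e t i (Real.exp Y) ≤
      term a e t j (Real.exp Y) + Real.exp (t j - ee j) / 2) :
    |X - t j| ≤ ee j := by
  classical
  have h2e := h.two_le he j
  rw [abs_le]
  constructor
  · by_contra hc
    have hc : X < t j - ee j := by linarith
    -- largest index with the same value
    let P : ℕ → Prop := fun i => t i = t j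
    let i := Nat.findGreatest P J
    have hi : P i := Nat.findGreatest_spec (m := j) hj rfl
    have hiJ : i ≤ J := Nat.findGreatest_le J
    have hji : j ≤ i := Nat.le_findGreatest hj rfl
    have hw := (h.window i j hi).2
    have hlt : i < J := by
      rcases lt_or_eq_of_le hiJ with h1 | h1
      · exact h1
      · exfalso; rw [h1] at hw; linarith
    have hne : ¬ P (i + 1) := Nat.findGreatest_is_greatest (Nat.lt_succ_self i) hlt
    have hst : t (i + 1) + 1 ≤ t i := by
      rcases h.step i with h1 | h1
      · exact absurd (h1.trans hi) hne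
      · exact h1
    have h1 := hopt (i + 1) hlt
    rw [term_succ, h.term_run _ hji (Eq.symm hi)] at h1
    have h2 := half_lt (u := Y) (v := th a e (i + 1)) (by linarith)
    have h3 : Real.exp (t j - ee j) ≤ Real.exp (th a e (i + 1)) :=
      Real.exp_le_exp.mpr (by linarith)
    have h4 := Real.exp_pos (th a e (i + 1))
    nlinarith
  · by_contra hc
    have hc : t j + ee j < X := by linarith
    have hex : ∃ i, t i = t j := ⟨j, rfl⟩
    have hi : t (Nat.find hex) = t j := Nat.find_spec hex
    have hij : Nat.find hex ≤ j := Nat.find_min' hex rfl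
    rcases hk : Nat.find hex with _ | i
    · rw [hk, h.zero] at hi; linarith
    · have hne : t i ≠ t j := Nat.find_min hex (by omega)
      rw [hk] at hi hij
      have hst : t (i + 1) + 1 ≤ t i := by
        rcases h.step i with h1 | h1
        · exact absurd (h1.symm.trans hi) hne
        · exact h1
      have hw := (h.window (i + 1) j hi).1
      have h1 := hopt i (by omega)
      rw [← h.term_run _ hij hi, term_succ] at h1
      have h2 := half_lt (u := th a e (i + 1)) (v := Y) (by linarith)
      have h3 : Real.exp (t j - ee j) ≤ Real.exp Y := Real.exp_le_exp.mpr (by linarith)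
      have h4 := Real.exp_pos Y
      nlinarith

end Rounding

end Vale.Agent.P072
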