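import Vale.Agent.P072.Round

/-! The rounding tree: finite families of affine maps whose maximisers round `log x`. -/

namespace Vale.Agent.P072

open Finset

def dot (n : ℕ) (l w : ℕ → ℝ) : ℝ := ∑ i ∈ range n, l i * w i

def val (n k : ℕ) (a : ℝ) (p : (ℕ → ℝ) × ℝ) (x : ℕ → ℝ) : ℝ :=
  ∑ i ∈ Ico k n, (p.1 i - a) * x i - p.2

structure Good (n k : ℕ) (H : Finset (ℕ → ℝ)) (Mf A F : ℝ) (w : ℕ → ℝ) (a e : ℝ)
    (T : Finset ((ℕ → ℝ) × ℝ)) : Prop where
  agree : ∀ p ∈ T, ∀ i, i < k → p.1 i = w i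
  le_cap : ∀ p ∈ T, ∀ i, k ≤ i → i < n → p.1 i ≤ a
  anti : ∀ p ∈ T, ∀ i j, k ≤ i → i ≤ j → j < n → p.1 j ≤ p.1 i
  tie : ∃ p ∈ T, (∀ i, k ≤ i → i < n → p.1 i = a) ∧ p.2 = 0
  upper : ∀ p ∈ T, ∀ x : ℕ → ℝ, (∀ i, 0 ≤ x i) → val n k a p x ≤ Real.exp (a - e) / 2
  valid : ∀ X : ℕ → ℝ, (∀ i, i < k → |X i - w i| ≤ e) →
    (∀ i, k ≤ i → i < n → X i ≤ a + e ∧ -F ≤ X i) →
    (∀ i j, k ≤ i → i ≤ j → j < n → X j ≤ X i) →
    ∃ p ∈ T, (∀ q ∈ T, val n k a q (fun i => Real.exp (X i)) ≤
        val n k a p (fun i => Real.exp (X i))) ∧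
      ∃ e', 1 ≤ e' ∧ e' ≤ A * e ∧ (∀ i, i < n → |X i - p.1 i| ≤ e') ∧
        ∀ h ∈ H, dot n h p.1 = 0 ∨ Mf * e' ≤ |dot n h p.1|

lemma val_tie {n k : ℕ} {a : ℝ} {p : (ℕ → ℝ) × ℝ} (h1 : ∀ i, k ≤ i → i < n → p.1 i = a)
    (h2 : p.2 = 0) (x : ℕ → ℝ) : val n k a p x = 0 := by
  unfold val
  rw [h2, sub_zero]
  apply sum_eq_zero
  intro i hi
  rw [mem_Ico] at hi
  rw [h1 i hi.1 hi.2]; ring

lemma val_split {n k : ℕ} (hk : k < n) (a c t : ℝ) (p : (ℕ → ℝ) × ℝ) (hp : p.1 k = t)
    (x : ℕ → ℝ) :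
    val n k a (p.1, p.2 + c) x =
      (t - a) * (∑ i ∈ Ico k n, x i) - c + val n (k + 1) t p x := by
  unfold val
  have h1 : ∑ i ∈ Ico (k + 1) n, (p.1 i - t) * x i = ∑ i ∈ Ico k n, (p.1 i - t) * x i := by
    rw [sum_eq_sum_Ico_succ_bot hk, hp]; simp
  rw [h1, mul_sum]
  have h2 : ∑ i ∈ Ico k n, (p.1 i - a) * x i =
      ∑ i ∈ Ico k n, (t - a) * x i + ∑ i ∈ Ico k n, (p.1 i - t) * x i := by
    rw [← sum_add_distrib]; apply sum_congr rfl; intro i _; ring
  simp only
  rw [h2]; ring

/-- the section attached to a functional -/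
noncomputable def sec (k : ℕ) (l : ℕ → ℝ) : ℕ → ℝ := fun i => if i ≤ k then -l i / l (k + 1) else 0

lemma dot_update {n k : ℕ} (hk : k + 1 < n) (l w : ℕ → ℝ) (t : ℝ) :
    dot n l (Function.update w (k + 1) t) = dot n l w + l (k + 1) * (t - w (k + 1)) := by
  unfold dot
  have h1 : ∀ i, l i * Function.update w (k + 1) t i =
      l i * w i + if i = k + 1 then l (k + 1) * (t - w (k + 1)) else 0 := by
    intro i
    by_cases h : i = k + 1
    · subst h; simp; ring
    · simp [h, Function.update_of_ne h]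
  simp only [h1, sum_add_distrib]
  rw [sum_ite_eq' (range n) (k + 1)]
  simp [hk]

lemma dot_sec {n k : ℕ} (hk : k + 1 < n) (l w : ℕ → ℝ) (hl : ∀ i, k + 1 < i → i < n → l i = 0)
    (h0 : l (k + 1) ≠ 0) (t : ℝ) :
    dot n l (Function.update w (k + 1) t) = l (k + 1) * (t - dot n (sec k l) w) := by
  rw [dot_update hk]
  have h1 : dot n l w = l (k + 1) * w (k + 1) - l (k + 1) * dot n (sec k l) w := by
    unfold dot
    have h2 : ∀ i ∈ range n, l i * w i =
        (if i = k + 1 then l (k + 1) * w (k + 1) else 0) - l (k + 1) * (sec k l i * w i) := by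
      intro i hi
      rw [mem_range] at hi
      unfold sec
      by_cases h : i ≤ k
      · rw [if_neg (by omega), if_pos h]; field_simp; ring
      · by_cases h' : i = k + 1
        · subst h'; simp
        · rw [if_neg h', if_neg h, hl i (by omega) hi]; simp
    rw [sum_congr rfl h2, sum_sub_distrib, sum_ite_eq' (range n) (k + 1), mul_sum]
    simp [hk]
  rw [h1]; ring

lemma dot_sub (n : ℕ) (l l' w : ℕ → ℝ) : dot n (l - l') w = dot n l w - dot n l' w := by
  unfold dot; rw [← sum_sub_distrib]; apply sum_congr rfl; intro i _; simp; ring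

lemma log_tail {n k : ℕ} (hk : k < n) (X : ℕ → ℝ)
    (hX : ∀ i j, k ≤ i → i ≤ j → j < n → X j ≤ X i) :
    ∃ Y, Real.exp Y = ∑ i ∈ Ico k n, Real.exp (X i) ∧ X k ≤ Y ∧ Y ≤ X k + n := by
  have h1 : Real.exp (X k) ≤ ∑ i ∈ Ico k n, Real.exp (X i) :=
    single_le_sum (f := fun i => Real.exp (X i)) (fun i _ => (Real.exp_pos _).le)
      (mem_Ico.mpr ⟨le_rfl, hk⟩)
  have h2 : ∑ i ∈ Ico k n, Real.exp (X i) ≤ Real.exp (X k + n) := by
    have h3 : ∑ i ∈ Ico k n, Real.exp (X i) ≤ (Ico k n).card • Real.exp (X k) := by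
      apply sum_le_card_nsmul
      intro i hi
      rw [mem_Ico] at hi
      exact Real.exp_le_exp.mpr (hX k i le_rfl hi.1 hi.2)
    rw [Nat.card_Ico, nsmul_eq_mul] at h3
    have h4 : ((n - k : ℕ) : ℝ) ≤ n := by exact_mod_cast Nat.sub_le n k
    have h5 : (n : ℝ) + 1 ≤ Real.exp n := Real.add_one_le_exp _
    have h6 := Real.exp_pos (X k)
    rw [Real.exp_add]
    nlinarith
  have hpos : 0 < ∑ i ∈ Ico k n, Real.exp (X i) := lt_of_lt_of_le (Real.exp_pos _) h1
  refine ⟨Real.log (∑ i ∈ Ico k n, Real.exp (X i)), Real.exp_log hpos, ?_, ?_⟩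
  · exact (Real.le_log_iff_exp_le hpos).mpr h1
  · exact (Real.log_le_iff_le_exp hpos).mpr h2

/-- Assembling the subtrees of the children. -/
lemma good_step {n k : ℕ} (hk : k < n) {H : Finset (ℕ → ℝ)} {Mf A F : ℝ} (hA : 1 ≤ A)
    {w : ℕ → ℝ} {a e : ℝ} {S : Finset ℝ} {B : ℕ} {t ee : ℕ → ℝ} (hr : Rounding S a e B t ee)
    (he : (n : ℝ) + 1 ≤ e) (hB : 5 ≤ B) (T : ℕ → Finset ((ℕ → ℝ) × ℝ))
    (hT : ∀ j, Good n (k + 1) H Mf A F (Function.update w k (t j)) (t j) (ee j) (T j)) :
    ∃ T', Good n k H Mf ((B + 2) * A) F w a e T' := by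
  classical
  have hn0 : (0 : ℝ) ≤ n := Nat.cast_nonneg n
  have he1 : 1 ≤ e := by linarith
  obtain ⟨J, hJ⟩ := exists_nat_ge (a + F)
  have hJ' : th a e (J + 1) ≤ -F := by
    have : (0 : ℝ) ≤ J := Nat.cast_nonneg J
    simp only [th]; push_cast; nlinarith
  let T' : Finset ((ℕ → ℝ) × ℝ) :=
    (range (J + 1)).biUnion fun j => (T j).image fun p => (p.1, p.2 + cost a e t j)
  have hmem : ∀ q, q ∈ T' ↔ ∃ j, j ≤ J ∧ ∃ p ∈ T j, q = (p.1, p.2 + cost a e t j) := by
    intro q
    simp only [T', mem_biUnion, mem_range, mem_image, Nat.lt_succ_iff]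
    constructor
    · rintro ⟨j, hj, p, hp, rfl⟩; exact ⟨j, hj, p, hp, rfl⟩
    · rintro ⟨j, hj, p, hp, rfl⟩; exact ⟨j, hj, p, hp, rfl⟩
  have hpk : ∀ j, ∀ p ∈ T j, p.1 k = t j := by
    intro j p hp
    rw [(hT j).agree p hp k (Nat.lt_succ_self k)]; simp
  have hval : ∀ j, ∀ p ∈ T j, ∀ x, val n k a (p.1, p.2 + cost a e t j) x =
      term a e t j (∑ i ∈ Ico k n, x i) + val n (k + 1) (t j) p x := by
    intro j p hp x
    rw [val_split hk a _ (t j) p (hpk j p hp)]; rfl
  refine ⟨T', ⟨?_, ?_, ?_, ?_, ?_, ?_⟩⟩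
  · intro q hq i hi
    obtain ⟨j, -, p, hp, rfl⟩ := (hmem q).mp hq
    simp only
    rw [(hT j).agree p hp i (by omega), Function.update_of_ne (by omega)]
  · intro q hq i hi hin
    obtain ⟨j, -, p, hp, rfl⟩ := (hmem q).mp hq
    simp only
    rcases eq_or_lt_of_le hi with h | h
    · rw [← h, hpk j p hp]; exact hr.le_cap j
    · exact ((hT j).le_cap p hp i h hin).trans (hr.le_cap j)
  · intro q hq i i' hi hii' hin
    obtain ⟨j, -, p, hp, rfl⟩ := (hmem q).mp hq
    simp only
    rcases eq_or_lt_of_le hi with h | h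
    · rcases eq_or_lt_of_le hii' with h' | h'
      · rw [h']
      · rw [← h, hpk j p hp]; exact (hT j).le_cap p hp i' (by omega) hin
    · exact (hT j).anti p hp i i' h hii' hin
  · obtain ⟨p, hp, h1, h2⟩ := (hT 0).tie
    refine ⟨(p.1, p.2 + cost a e t 0), (hmem _).mpr ⟨0, Nat.zero_le _, p, hp, rfl⟩, ?_, ?_⟩
    · intro i hi hin
      simp only
      rcases eq_or_lt_of_le hi with h | h
      · rw [← h, hpk 0 p hp, hr.zero]
      · rw [h1 i h hin, hr.zero]
    · simp [h2, cost]
  · intro q hq x hx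
    obtain ⟨j, -, p, hp, rfl⟩ := (hmem q).mp hq
    rw [hval j p hp]
    have h1 := hr.term_le he1 hB (∑ i ∈ Ico k n, x i) (sum_nonneg fun i _ => hx i) j
    have h2 := (hT j).upper p hp x hx
    have h3 : Real.exp (t j - ee j) ≤ Real.exp (a - e - 1) := by
      apply Real.exp_le_exp.mpr
      have := hr.le_cap j
      have := hr.two_le he1 j
      linarith
    have h4 := Rounding.half_lt (u := a - e - 1) (v := a - e) (by linarith)
    linarith
  · intro X hX1 hX2 hX3
    obtain ⟨Y, hY, hXY, hYX⟩ := log_tail hk X hX3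
    set x : ℕ → ℝ := fun i => Real.exp (X i) with hx
    have hne : T'.Nonempty := by
      obtain ⟨p, hp, -⟩ := (hT 0).tie
      exact ⟨_, (hmem _).mpr ⟨0, Nat.zero_le _, p, hp, rfl⟩⟩
    obtain ⟨q, hq, hmax⟩ := exists_max_image T' (fun q => val n k a q x) hne
    obtain ⟨j, hj, p, hp, rfl⟩ := (hmem q).mp hq
    have hsum : ∑ i ∈ Ico k n, x i = Real.exp Y := hY.symm
    have hclose : |X k - t j| ≤ ee j := by
      apply hr.close he1 (D := n) (Y := Y) (J := J) he hXY hYX (hX2 k le_rfl hk).1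
        (hJ'.trans (hX2 k le_rfl hk).2) hj
      intro i hi
      obtain ⟨p0, hp0, h1, h2⟩ := (hT i).tie
      have h3 := hmax _ ((hmem _).mpr ⟨i, hi, p0, hp0, rfl⟩)
      rw [hval i p0 hp0, hval j p hp, val_tie h1 h2, hsum] at h3
      have h4 := (hT j).upper p hp x (fun i => (Real.exp_pos _).le)
      linarith
    have h2e := hr.two_le he1 j
    obtain ⟨p', hp', hmax', e', h1, h2, h3, h4⟩ := (hT j).valid X (by
        intro i hi
        by_cases h : i = k
        · subst h; simpa using hclose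
        · rw [Function.update_of_ne h]
          exact (hX1 i (by omega)).trans (by linarith))
      (by
        intro i hi hin
        refine ⟨?_, (hX2 i (by omega) hin).2⟩
        have := hX3 k i le_rfl (by omega) hin
        have := (abs_le.mp hclose).2
        linarith)
      (fun i i' hi hii' hin => hX3 i i' (by omega) hii' hin)
    refine ⟨(p'.1, p'.2 + cost a e t j), (hmem _).mpr ⟨j, hj, p', hp', rfl⟩, ?_, e', h1, ?_,
      h3, h4⟩
    · intro q hq
      have h5 := hmax q hq
      have h6 := hmax' p hp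
      rw [hval j p hp] at h5
      rw [hval j p' hp']
      linarith
    · have := hr.le_B he1 j
      nlinarith

lemma exists_lower (G : Finset (ℕ → ℝ)) (k : ℕ) :
    ∃ c : ℝ, 0 < c ∧ ∀ l ∈ G, l k ≠ 0 → c ≤ |l k| := by
  classical
  induction G using Finset.induction_on with
  | empty => exact ⟨1, one_pos, by simp⟩
  | insert l G _ ih =>
    obtain ⟨c, hc, h⟩ := ih
    by_cases h0 : l k = 0
    · refine ⟨c, hc, fun l' hl' hne => ?_⟩
      rcases mem_insert.mp hl' with rfl | h1
      · exact absurd h0 hne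
      · exact h l' h1 hne
    · refine ⟨min c |l k|, lt_min hc (abs_pos.mpr h0), fun l' hl' hne => ?_⟩
      rcases mem_insert.mp hl' with rfl | h1
      · exact min_le_right _ _
      · exact (min_le_left _ _).trans (h l' h1 hne)

theorem tree (n : ℕ) (H : Finset (ℕ → ℝ)) (Mf : ℝ) (hMf : 0 ≤ Mf) :
    ∀ m k, k + 1 + m = n → ∃ (G : Finset (ℕ → ℝ)) (M A : ℝ), 1 ≤ A ∧ 0 ≤ M ∧
      (∀ l ∈ G, ∀ i, k < i → i < n → l i = 0) ∧
      ∀ (F : ℝ) (w : ℕ → ℝ) (e : ℝ), (n : ℝ) + 1 ≤ e →
        (∀ l ∈ G, dot n l w = 0 ∨ M * e ≤ |dot n l w|) →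
        ∃ T, Good n (k + 1) H Mf A F w (w k) e T := by
  classical
  intro m
  induction m with
  | zero =>
    intro k hk
    refine ⟨H, Mf, 1, le_rfl, hMf, fun l _ i h1 h2 => by omega, fun F w e he hs => ?_⟩
    have hn0 : (0 : ℝ) ≤ n := Nat.cast_nonneg n
    refine ⟨{(w, 0)}, ⟨?_, ?_, ?_, ?_, ?_, ?_⟩⟩
    · intro p hp i _; rw [mem_singleton.mp hp]
    · intro p _ i h1 h2; omega
    · intro p _ i j h1 h2 h3; omega
    · exact ⟨_, mem_singleton_self _, fun i h1 h2 => by omega, rfl⟩
    · intro p hp x _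
      rw [mem_singleton.mp hp, val_tie (fun i h1 h2 => by omega) rfl]; positivity
    · intro X h1 _ _
      refine ⟨_, mem_singleton_self _, fun q hq => by rw [mem_singleton.mp hq], e, by linarith,
        by linarith, fun i hi => h1 i (by omega), hs⟩
  | succ m ih =>
    intro k hk
    obtain ⟨G1, M1, A1, hA1, hM1, hsupp, hG1⟩ := ih (k + 1) (by omega)
    have hkn : k + 1 < n := by omega
    obtain ⟨c, hc, hcl⟩ := exists_lower G1 (k + 1)
    obtain ⟨B0, hB0⟩ := exists_nat_ge (2 * M1 / c)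
    let B : ℕ := B0 + 5
    have hB5 : 5 ≤ B := by omega
    have hBc : 2 * M1 ≤ c * B := by
      have h1 : (B0 : ℝ) ≤ B := by exact_mod_cast Nat.le_add_right B0 5
      rw [div_le_iff₀ hc] at hB0
      nlinarith
    have hB0' : (0 : ℝ) ≤ B := Nat.cast_nonneg B
    let s0 : ℕ → ℝ := fun i => if i = k then 1 else 0
    let Sg : Finset (ℕ → ℝ) := insert s0 ((G1.filter fun l => l (k + 1) ≠ 0).image (sec k))
    let G : Finset (ℕ → ℝ) := (G1.filter fun l => l (k + 1) = 0) ∪ image₂ (fun s s' => s - s') Sg Sg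
    let M : ℝ := (B + 2) * M1 + (B + 2) * M1 / c + (2 * B + 2)
    have hq : 0 ≤ (B + 2) * M1 / c := by positivity
    have hq' : 0 ≤ (B + 2) * M1 := by positivity
    have hSg : ∀ s ∈ Sg, ∀ i, k < i → s i = 0 := by
      intro s hs i hi
      rcases mem_insert.mp hs with rfl | h
      · simp only [s0]; rw [if_neg (by omega)]
      · obtain ⟨l, -, rfl⟩ := mem_image.mp h
        simp only [sec]; rw [if_neg (by omega)]
    refine ⟨G, M, (B + 2) * A1, by nlinarith, by positivity, ?_, fun F w e he hs => ?_⟩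
    · intro l hl i hi hin
      rcases mem_union.mp hl with h | h
      · rw [mem_filter] at h
        by_cases h' : i = k + 1
        · rw [h', h.2]
        · exact hsupp l h.1 i (by omega) hin
      · obtain ⟨s, hs, s', hs', rfl⟩ := mem_image₂.mp h
        simp [hSg s hs i hi, hSg s' hs' i hi]
    · have hn0 : (0 : ℝ) ≤ n := Nat.cast_nonneg n
      have he1 : 1 ≤ e := by linarith
      let S : Finset ℝ := Sg.image fun s => dot n s w
      have hsepM : ∀ s ∈ S, ∀ s' ∈ S, s = s' ∨ M * e ≤ |s - s'| := by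
        intro s hs1 s' hs2
        obtain ⟨u, hu, rfl⟩ := mem_image.mp hs1
        obtain ⟨u', hu', rfl⟩ := mem_image.mp hs2
        have := hs (u - u') (mem_union_right _ (mem_image₂.mpr ⟨u, hu, u', hu', rfl⟩))
        rw [dot_sub] at this
        rcases this with h | h
        · left; linarith
        · right; exact h
      have ha : w k ∈ S := by
        refine mem_image.mpr ⟨s0, mem_insert_self _ _, ?_⟩
        unfold dot
        simp only [s0, ite_mul, one_mul, zero_mul]
        rw [sum_ite_eq' (range n) k]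
        simp [show k < n by omega]
      obtain ⟨t, ee, hr⟩ := exists_rounding S (w k) e B ha he1 (by omega) (by
        intro s hs1 s' hs2
        rcases hsepM s hs1 s' hs2 with h | h
        · exact Or.inl h
        · right
          refine le_trans ?_ h
          simp only [M]; nlinarith)
      have hchild : ∀ j, ∃ T, Good n (k + 1 + 1) H Mf A1 F (Function.update w (k + 1) (t j))
          (t j) (ee j) T := by
        intro j
        have h2e := hr.two_le he1 j
        have hBe := hr.le_B he1 j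
        have := hG1 F (Function.update w (k + 1) (t j)) (ee j) (by linarith) (by
          intro l hl
          by_cases h0 : l (k + 1) = 0
          · rw [dot_update hkn, h0, zero_mul, add_zero]
            rcases hs l (mem_union_left _ (mem_filter.mpr ⟨hl, h0⟩)) with h | h
            · exact Or.inl h
            · right
              refine le_trans ?_ h
              simp only [M]; nlinarith
          · rw [dot_sec hkn l w (hsupp l hl) h0]
            have hmem : dot n (sec k l) w ∈ S :=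
              mem_image.mpr ⟨_, mem_insert_of_mem
                (mem_image.mpr ⟨l, mem_filter.mpr ⟨hl, h0⟩, rfl⟩), rfl⟩
            have hcl' := hcl l hl h0
            rcases hr.kind j with ⟨h1, h2⟩ | ⟨h1, h2⟩
            · rcases hsepM _ h1 _ hmem with h | h
              · left; rw [← h]; ring
              · right
                rw [abs_mul, h2]
                have h3 : (B + 2) * M1 / c * e ≤ |t j - dot n (sec k l) w| := by
                  refine le_trans ?_ h
                  simp only [M]; nlinarith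
                have h4 : c * ((B + 2) * M1 / c * e) ≤
                    |l (k + 1)| * |t j - dot n (sec k l) w| :=
                  mul_le_mul hcl' h3 (by positivity) (abs_nonneg _)
                have h5 : c * ((B + 2) * M1 / c * e) = M1 * ((B + 2) * e) := by
                  field_simp
                linarith
            · right
              rw [abs_mul, h2]
              have h4 : c * (B * e) ≤ |l (k + 1)| * |t j - dot n (sec k l) w| :=
                mul_le_mul hcl' (h1 _ hmem).le (by positivity) (abs_nonneg _)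
              nlinarith)
        simpa using this
      choose T hT using hchild
      exact good_step hkn hA1 hr he hB5 T hT

end Vale.Agent.P072
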